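import Vale.Agent.P146.R2.H597.Main

/-!
# P146: exact chaos function: common definitions for the two halves
-/

open MeasureTheory ProbabilityTheory Finset Filter Topology

namespace Vale.Agent.P146.R3

open Vale.Agent.P146 Vale.Agent.P146.Ub.Cv Vale.Agent.P146.H605 Vale.Agent.P146.H453
  Vale.Agent.P146.R2

variable {n : ℕ}

/-- `n⁻¹ ⟨σ · U_k(W) σ⟩` -/
noncomputable def Yn (β : ℝ) (n k : ℕ) (g : Pair n → ℝ) : ℝ :=
  (n : ℝ)⁻¹ * ∑ j : Fin n, ∑ u : Fin n, H432.cheb k (H432.WW g) j u * f2 β j u g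

/-- the mean of `Yn` -/
noncomputable def mn (β : ℝ) (n k : ℕ) : ℝ := ∫ g, Yn β n k g ∂(disorder n)

/-- the part of `nv` with `α ≠ 0` and without edge at `j` -/
noncomputable def nvE (t : ℝ) (L : ℕ) (A : Fam n) (j : Fin n) : ℝ :=
  ∑ α ∈ (ML n L).filter (fun α => deg α j = 0 ∧ α ≠ 0), H453.wt t α * A j α ^ 2

/-- the part of `nv` with an edge at `j` -/
noncomputable def nvD (t : ℝ) (L : ℕ) (A : Fam n) (j : Fin n) : ℝ :=
  ∑ α ∈ (ML n L).filter (fun α => deg α j ≠ 0), H453.wt t α * A j α ^ 2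

lemma wt_zero (t : ℝ) : H453.wt t (0 : MI n) = 1 := by
  unfold H453.wt H453.tot
  simp

lemma nv_split (t : ℝ) (L : ℕ) (A : Fam n) (j : Fin n) :
    nv t L A j = A j 0 ^ 2 + nvE t L A j + nvD t L A j := by
  unfold nv nvE nvD
  rw [← Finset.sum_filter_add_sum_filter_not (ML n L) (fun α => deg α j = 0)]
  congr 1
  rw [← Finset.sum_filter_add_sum_filter_not ((ML n L).filter fun α => deg α j = 0)
    (fun α => α = 0)]
  rw [Finset.filter_filter, Finset.filter_filter]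
  congr 1
  have h : (ML n L).filter (fun α => deg α j = 0 ∧ α = 0) = {0} := by
    ext α
    rw [Finset.mem_filter, Finset.mem_singleton, mem_ML]
    constructor
    · exact fun h => h.2.2
    · rintro rfl
      exact ⟨by simp [H453.tot], by simp [deg], rfl⟩
  rw [h, Finset.sum_singleton, wt_zero, one_mul]

/-- full equivariance of the first family (R1a) -/
def StPerm : Prop := ∀ (n : ℕ) (β : ℝ) (π : Equiv.Perm (Fin n)) (j : Fin n) (k : ℕ)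
  (v : Fin n) (α : MI n), CC β (π j) k (π v) (fun e => α ((pe π).symm e)) = CC β j k v α

/-- the mean (R1b) -/
def StZero : Prop := ∀ (n : ℕ) (β : ℝ) (j : Fin n) (k : ℕ), CC β j k j 0 = mn β n k

/-- the part without edge at `j` (R1c) -/
def StE : Prop := ∀ (n : ℕ) (β t : ℝ) (L k : ℕ), 0 ≤ t → t ≤ 1 → 4 * L ≤ n → 1 ≤ n →
  (n : ℝ)⁻¹ * ∑ j : Fin n, nvE t L (CC β j k) j ≤
    4 * (∫ g, (Yn β n k g - mn β n k) ^ 2 ∂(disorder n)) +
      100 * ((L : ℝ) + 1) ^ 2 / n * ((n : ℝ)⁻¹ * ∑ j : Fin n, nv t L (CC β j k) j)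

/-- the part with edges at `j` (R1d) -/
def StD : Prop := ∀ (n : ℕ) (β t : ℝ) (L k : ℕ), 0 < t → t ≤ 1 → 1 ≤ n → 1 ≤ k →
  t ^ k * ((n : ℝ)⁻¹ * ∑ j : Fin n, nvD t L (CC β j k) j) ≤
    2 * ((n : ℝ)⁻¹ * ∑ j : Fin n, ∑ v, ∑ e₁ ∈ st v, ∑ e₂ ∈ st v, ∑ e₃ ∈ st v,
      nv t (L + k) (GG β j v e₁ e₂ e₃ 0) v) +
    2 * ep n (L + k) k ^ 2 * ∑ l ∈ range (k + 1), (n : ℝ)⁻¹ * ∑ j : Fin n, ns t (L + k) (CC β j l)

/-- the average of the path coefficients -/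
noncomputable def pn (β : ℝ) (n k : ℕ) : ℝ := (n : ℝ)⁻¹ * ∑ j : Fin n, fk {j} (CC β j 0) k j 0

/-- the lower bound (R2a) -/
def StLow : Prop := ∀ (n : ℕ) (β t : ℝ) (K : ℕ), 0 < t → t ≤ 1 → 1 ≤ n →
  ∑ k ∈ range (K + 1), t ^ k * pn β n k ^ 2 ≤ n * crossOverlap n β t

/-- the path coefficients are close to the means (R2b) -/
def StClose : Prop := ∀ (n : ℕ) (β t : ℝ) (k : ℕ), 0 < t → t ≤ 1 → 1 ≤ n →
  t ^ k * (pn β n k - (n : ℝ)⁻¹ * ∑ j : Fin n, CC β j k j 0) ^ 2 ≤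
    (k * eta n k) ^ 2 * ∑ l ∈ range (k + 1), (n : ℝ)⁻¹ * ∑ j : Fin n, ns t k (CC β j l)

end Vale.Agent.P146.R3
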