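import Vale.Agent.P146.R3.H597.Lim
import Vale.Agent.P146.R3.H597.Cut

/-!
# P146: the exact chaos function from the convergence of `n⁻¹⟨σ · U_k(W) σ⟩`
-/

open MeasureTheory ProbabilityTheory Finset Filter Topology

namespace Vale.Agent.P146.R3

open Vale.Agent.P146 Vale.Agent.P146.Ub.Cv Vale.Agent.P146.H605 Vale.Agent.P146.H453
  Vale.Agent.P146.R2

/-! ### the mean and the variance of `Yn` -/

section mean

variable (β : ℝ) (n k : ℕ)

lemma Yn_dom : Dom (Yn β n k) :=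
  (Dom.sum _ fun j _ => Dom.sum _ fun u _ => (H432.dom_cheb k j u).mul (f2_dom β j u)).const_mul _

lemma Yn_int : Integrable (Yn β n k) (disorder n) := (Yn_dom β n k).integrable

lemma Yn_sq_int (c : ℝ) : Integrable (fun g => (Yn β n k g - c) ^ 2) (disorder n) :=
  (((Yn_dom β n k).sub (Dom.const c)).pow 2).integrable

lemma var_eq (c : ℝ) : ∫ g, (Yn β n k g - c) ^ 2 ∂(disorder n) =
    ∫ g, (Yn β n k g - mn β n k) ^ 2 ∂(disorder n) + (mn β n k - c) ^ 2 := by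
  have h1 : ∀ g, (Yn β n k g - c) ^ 2 = (Yn β n k g - mn β n k) ^ 2 +
      (2 * (mn β n k - c) * (Yn β n k g - mn β n k) + (mn β n k - c) ^ 2) := by
    intro g; ring
  simp_rw [h1]
  have i1 : Integrable (fun g => 2 * (mn β n k - c) * (Yn β n k g - mn β n k)) (disorder n) :=
    ((Yn_int β n k).sub (integrable_const _)).const_mul _
  have i2 : Integrable (fun g => 2 * (mn β n k - c) * (Yn β n k g - mn β n k) +
      (mn β n k - c) ^ 2) (disorder n) := i1.add (integrable_const _)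
  rw [integral_add (Yn_sq_int β n k _) i2, integral_add i1 (integrable_const _),
    integral_const_mul, integral_sub (Yn_int β n k) (integrable_const _)]
  have h2 : ∫ g, Yn β n k g ∂(disorder n) = mn β n k := rfl
  rw [h2]
  simp

lemma var_le (c : ℝ) : ∫ g, (Yn β n k g - mn β n k) ^ 2 ∂(disorder n) ≤
    ∫ g, (Yn β n k g - c) ^ 2 ∂(disorder n) := by
  rw [var_eq β n k c]
  linarith [sq_nonneg (mn β n k - c)]

lemma mn_sq_le (c : ℝ) : (mn β n k - c) ^ 2 ≤ ∫ g, (Yn β n k g - c) ^ 2 ∂(disorder n) := by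
  rw [var_eq β n k c]
  have : 0 ≤ ∫ g, (Yn β n k g - mn β n k) ^ 2 ∂(disorder n) :=
    integral_nonneg fun g => sq_nonneg _
  linarith

end mean

lemma tendsto_mn {β : ℝ} {k : ℕ} {c : ℝ}
    (h : Tendsto (fun n : ℕ => ∫ g, (Yn β n k g - c) ^ 2 ∂(disorder n)) atTop (𝓝 0)) :
    Tendsto (fun n => mn β n k) atTop (𝓝 c) := by
  have h1 : Tendsto (fun n : ℕ => (mn β n k - c) ^ 2) atTop (𝓝 0) :=
    squeeze_zero (fun n => sq_nonneg _) (fun n => mn_sq_le β n k c) h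
  have h2 : Tendsto (fun n : ℕ => |mn β n k - c|) atTop (𝓝 0) := by
    have h3 := (Real.continuous_sqrt.tendsto 0).comp h1
    rw [Real.sqrt_zero] at h3
    refine h3.congr fun n => ?_
    simp only [Function.comp]
    exact Real.sqrt_sq_eq_abs _
  have h3 := (tendsto_zero_iff_abs_tendsto_zero _).2 h2
  have h4 := h3.add_const c
  simpa using h4

lemma tendsto_var {β : ℝ} {k : ℕ} {c : ℝ}
    (h : Tendsto (fun n : ℕ => ∫ g, (Yn β n k g - c) ^ 2 ∂(disorder n)) atTop (𝓝 0)) :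
    Tendsto (fun n : ℕ => ∫ g, (Yn β n k g - mn β n k) ^ 2 ∂(disorder n)) atTop (𝓝 0) :=
  squeeze_zero (fun n => integral_nonneg fun g => sq_nonneg _) (fun n => var_le β n k c) h

/-! ### the error terms -/

lemma ev_LL {t : ℝ} (ht0 : 0 ≤ t) (ht1 : t < 1) (k : ℕ) :
    ∀ᶠ n : ℕ in atTop, ((LL n t + k : ℕ) : ℝ) + 1 ≤ zz0 n ^ 5 := by
  filter_upwards [params, ev_tau ht1, tendsto_zz0.eventually_ge_atTop ((k : ℝ) + 1)]
    with n hp hτ hz
  obtain ⟨hz1, -, hL, -⟩ := hp t ht0 hτ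
  have hz0 : 0 < zz0 n := by linarith
  have h1 : (1 : ℝ) ≤ zz0 n ^ 4 := one_le_pow₀ (by linarith)
  have h2 : ((k : ℝ) + 1) * 1 ≤ zz0 n * zz0 n ^ 4 := mul_le_mul hz h1 (by norm_num) hz0.le
  have h3 : zz0 n ^ 5 = zz0 n * zz0 n ^ 4 := by ring
  push_cast
  have hL' : (LL n t : ℝ) + 1 ≤ zz0 n ^ 4 := hL
  have h4 : 100 * zz0 n ^ 4 ≤ zz0 n * zz0 n ^ 4 := mul_le_mul_of_nonneg_right hz1 (by positivity)
  have h5 : (k : ℝ) ≤ zz0 n := by linarith
  have h6 : zz0 n ≤ zz0 n ^ 4 := le_self_pow₀ (by linarith) (by norm_num)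
  linarith

/-- the error terms of the path formula are small -/
lemma err_small {β : ℝ} (hβ : 1 < β) {t : ℝ} (ht : 0 < t) (ht1 : t < 1) (k : ℕ) {ε : ℝ}
    (hε : 0 < ε) : ∀ᶠ n : ℕ in atTop, ∀ L' : ℕ, k ≤ L' → (L' : ℝ) + 1 ≤ zz0 n ^ 5 →
      ep n L' k ^ 2 * ∑ l ∈ range (k + 1), (n : ℝ)⁻¹ * ∑ j : Fin n, ns t L' (CC β j l) ≤ ε := by
  have hlim : Tendsto (fun n : ℕ => (1000 * ((k : ℝ) + 1) ^ 3) / zz0 n) atTop (𝓝 0) :=
    tendsto_const_nhds.div_atTop tendsto_zz0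
  filter_upwards [params, H432.err_num' (2 * (1 + 2304 * β ^ 6)) 2, H501.m5_num hβ,
    eventually_ge_atTop 1, ev_tau ht1, (tendsto_LL ht1).eventually_ge_atTop k,
    hlim.eventually_le_const hε] with n hp herr h5 hn hτ hkL hsm L' hkL' hL'
  obtain ⟨hz, hq1, hL, hqL, hρ, hpos, hT⟩ := hp t ht.le hτ
  obtain ⟨hR1, -⟩ := h5 t ht.le hτ
  obtain ⟨z, hzz⟩ : ∃ z, z = zz0 n := ⟨_, rfl⟩
  have hzn : z ^ 8000 = n := by rw [hzz]; exact zz0_pow n
  have hz0 : 0 < z := by rw [hzz]; linarith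
  have hz1 : 1 ≤ z := by rw [hzz]; linarith
  have hn0' : (0 : ℝ) < n := by exact_mod_cast hn
  have hn1' : (1 : ℝ) ≤ n := by exact_mod_cast hn
  have hEr : ∀ l ≤ k, (1 + 2304 * β ^ 6) * (n : ℝ) ^ 2 * (2 * H432.errQ n (qq n t) l) ≤
      1 / zz0 n ^ 80 := by
    intro l hl
    have h := herr t ht.le hτ l (hl.trans hkL)
    refine le_trans (le_of_eq ?_) h
    ring
  have hR10 := crossMom_nonneg' n β 1 t
  obtain ⟨R1, hR1e⟩ : ∃ R1, R1 = H501.crossMom n β 1 t := ⟨_, rfl⟩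
  have hq0 : 0 < qq n t := by linarith
  have hs1 : 1 / zz0 n ^ 4 ≤ 1 := by
    rw [div_le_one (by rw [← hzz]; positivity)]
    exact one_le_pow₀ (by rw [← hzz]; exact hz1)
  have hS : ∑ l ∈ range (k + 1), (n : ℝ)⁻¹ * ∑ j : Fin n, ns t L' (CC β j l) ≤
      ((k : ℝ) + 1) * (n * (2 * ((k : ℝ) + 1) ^ 2) * R1 + 1 / zz0 n ^ 80) := by
    refine (Finset.sum_le_sum (g := fun _ => n * (2 * ((k : ℝ) + 1) ^ 2) * R1 + 1 / zz0 n ^ 80)
      fun l hl => ?_).trans (le_of_eq ?_)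
    · rw [mem_range] at hl
      have hl' : l ≤ k := by omega
      have h := H757.h2form β hn hq1 ht.le ht1.le L' l (hEr l hl')
      have e0 : H757.crossMom n β 1 t = R1 := by rw [hR1e]; rfl
      rw [e0] at h
      refine h.trans ?_
      have e1 : ((l + 1 : ℝ) * qq n t ^ l) ^ 2 ≤ 2 * (k + 1) ^ 2 := by
        rw [mul_pow]
        have e2 : (qq n t ^ l) ^ 2 ≤ 2 := by
          calc (qq n t ^ l) ^ 2 ≤ (qq n t ^ LL n t) ^ 2 :=
                pow_le_pow_left₀ (by positivity) (pow_le_pow_right₀ hq1 (hl'.trans hkL)) 2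
            _ ≤ 2 := by linarith
        have e3 : ((l : ℝ) + 1) ^ 2 ≤ (k + 1) ^ 2 := by
          have : (l : ℝ) ≤ k := by exact_mod_cast hl'
          exact pow_le_pow_left₀ (by positivity) (by linarith) 2
        calc ((l : ℝ) + 1) ^ 2 * (qq n t ^ l) ^ 2 ≤ ((k : ℝ) + 1) ^ 2 * 2 :=
              mul_le_mul e3 e2 (by positivity) (by positivity)
          _ = 2 * (k + 1) ^ 2 := by ring
      have e4 := mul_le_mul_of_nonneg_right (mul_le_mul_of_nonneg_left e1 hn0'.le)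
        (by rw [hR1e]; exact hR10 : 0 ≤ R1)
      linarith
    · rw [sum_const, card_range, nsmul_eq_mul]
      push_cast
      ring
  have hS0 : 0 ≤ ∑ l ∈ range (k + 1), (n : ℝ)⁻¹ * ∑ j : Fin n, ns t L' (CC β j l) :=
    Finset.sum_nonneg fun l _ => mul_nonneg (by positivity)
      (Finset.sum_nonneg fun j _ => ns_nonneg ht.le _ _)
  rw [← hR1e] at hR1
  rw [← hzz] at hL' hR1 hS hsm
  have hLn : L' + 1 ≤ n := by
    have h1 : (L' : ℝ) + 1 ≤ n := by
      rw [← hzn]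
      exact hL'.trans (pow_le_pow_right₀ hz1 (by norm_num))
    exact_mod_cast h1
  have he : ep n L' k ^ 2 ≤ 100 * z ^ 20 / n := by
    refine (pow_le_pow_left₀ (ep_nonneg n L' k) (ep_le_er0 hkL') 2).trans
      ((er0_sq_le (by omega) hLn).trans ?_)
    refine div_le_div_of_nonneg_right ?_ hn0'.le
    have h1 : ((L' : ℝ) + 1) ^ 4 ≤ (z ^ 5) ^ 4 := pow_le_pow_left₀ (by positivity) hL' 4
    have h2 : (z ^ 5) ^ 4 = z ^ 20 := by rw [← pow_mul]
    linarith
  have hR10' : 0 ≤ R1 := by rw [hR1e]; exact hR10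
  calc ep n L' k ^ 2 * ∑ l ∈ range (k + 1), (n : ℝ)⁻¹ * ∑ j : Fin n, ns t L' (CC β j l)
      ≤ (100 * z ^ 20 / n) * (((k : ℝ) + 1) * (n * (2 * ((k : ℝ) + 1) ^ 2) * R1 + 1 / z ^ 80)) :=
        mul_le_mul he hS hS0 (by positivity)
    _ = 200 * ((k : ℝ) + 1) ^ 3 * (z ^ 20 * R1) + 100 * ((k : ℝ) + 1) * (z ^ 20 / (n * z ^ 80)) := by
        field_simp
        ring
    _ ≤ 400 * ((k : ℝ) + 1) ^ 3 * (1 / z) + 100 * ((k : ℝ) + 1) ^ 3 * (1 / z) := by
        refine add_le_add ?_ ?_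
        · have h1 : z ^ 20 * R1 ≤ 2 * (1 / z) := by
            calc z ^ 20 * R1 ≤ z ^ 20 * (2 / z ^ 192) :=
                  mul_le_mul_of_nonneg_left hR1 (by positivity)
              _ = 2 * (1 / z ^ 172) := by field_simp
              _ ≤ 2 * (1 / z) := by
                  refine mul_le_mul_of_nonneg_left ?_ (by norm_num)
                  exact one_div_le_one_div_of_le hz0 (le_self_pow₀ hz1 (by norm_num))
          have h2 := mul_le_mul_of_nonneg_left h1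
            (by positivity : (0 : ℝ) ≤ 200 * ((k : ℝ) + 1) ^ 3)
          linarith
        · have h1 : z ^ 20 / (n * z ^ 80) ≤ 1 / z := by
            calc z ^ 20 / (n * z ^ 80) ≤ z ^ 20 / (1 * z ^ 80) := by
                  refine div_le_div_of_nonneg_left (by positivity) (by positivity) ?_
                  exact mul_le_mul_of_nonneg_right hn1' (by positivity)
              _ = 1 / z ^ 60 := by field_simp
              _ ≤ 1 / z := one_div_le_one_div_of_le hz0 (le_self_pow₀ hz1 (by norm_num))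
          have h2 : (k : ℝ) + 1 ≤ ((k : ℝ) + 1) ^ 3 := le_self_pow₀ (by
            have : (0 : ℝ) ≤ k := Nat.cast_nonneg k
            linarith) (by norm_num)
          have h3 : 0 ≤ z ^ 20 / (n * z ^ 80) := by positivity
          calc 100 * ((k : ℝ) + 1) * (z ^ 20 / (n * z ^ 80)) ≤
              100 * ((k : ℝ) + 1) ^ 3 * (z ^ 20 / (n * z ^ 80)) :=
                mul_le_mul_of_nonneg_right (by linarith) h3
            _ ≤ 100 * ((k : ℝ) + 1) ^ 3 * (1 / z) :=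
                mul_le_mul_of_nonneg_left h1 (by positivity)
    _ ≤ (1000 * ((k : ℝ) + 1) ^ 3) / z := by
        rw [div_eq_mul_one_div (1000 * ((k : ℝ) + 1) ^ 3)]
        have h1 : 0 ≤ ((k : ℝ) + 1) ^ 3 * (1 / z) := by positivity
        linarith
    _ ≤ ε := hsm

/-- the term with three edges at the end is small -/
lemma star_small {β : ℝ} (hβ : 1 < β) {t : ℝ} (ht : 0 < t) (ht1 : t < 1) {ε : ℝ}
    (hε : 0 < ε) : ∀ᶠ n : ℕ in atTop, ∀ L' : ℕ,
      (n : ℝ)⁻¹ * ∑ j : Fin n, ∑ v, ∑ e₁ ∈ st v, ∑ e₂ ∈ st v, ∑ e₃ ∈ st v,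
        nv t L' (GG β j v e₁ e₂ e₃ 0) v ≤ ε := by
  obtain ⟨X0, hX0⟩ : ∃ X0 : ℝ, X0 = 2 * ((1 + t) / (1 - t) ^ 3) := ⟨_, rfl⟩
  have hX00 : 0 ≤ X0 := by
    rw [hX0]
    exact mul_nonneg (by norm_num) (div_nonneg (by linarith) (pow_nonneg (by linarith) 3))
  have hlim : Tendsto (fun n : ℕ => (2304 * β ^ 6 * (X0 + 1) + 1) / zz0 n) atTop (𝓝 0) :=
    tendsto_const_nhds.div_atTop tendsto_zz0
  filter_upwards [params, H432.err_num' (2 * (1 + 2304 * β ^ 6)) 2, H501.m5_num hβ,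
    eventually_ge_atTop 1, ev_tau ht1, R2.main hβ,
    hlim.eventually_le_const hε] with n hp herr h5 hn hτ hmain hsm L'
  obtain ⟨hz, hq1, hL, hqL, hρ, hpos, hT⟩ := hp t ht.le hτ
  obtain ⟨-, hR4⟩ := h5 t ht.le hτ
  obtain ⟨hc, -⟩ := hmain t ht.le hτ
  obtain ⟨z, hzz⟩ : ∃ z, z = zz0 n := ⟨_, rfl⟩
  have hz0 : 0 < z := by rw [hzz]; linarith
  have hz1 : 1 ≤ z := by rw [hzz]; linarith
  have hEr : (1 + 2304 * β ^ 6) * (n : ℝ) ^ 2 * (2 * H432.errQ n (qq n t) 0) ≤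
      1 / zz0 n ^ 80 := by
    have h := herr t ht.le hτ 0 (Nat.zero_le _)
    refine le_trans (le_of_eq ?_) h
    ring
  have h := H757.h3form β hn hq1 ht.le ht1.le L' 0 hEr
  refine h.trans ?_
  rw [← hzz] at hR4 hsm ⊢
  have hX : n * crossOverlap n β t ≤ X0 := by
    refine hc.trans ?_
    rw [hX0]
    refine mul_le_mul_of_nonneg_right ?_ (div_nonneg (by linarith)
      (pow_nonneg (by linarith) 3))
    rw [← hzz]
    have : 1 / z ≤ 1 := by rw [div_le_one hz0]; exact hz1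
    linarith
  have h1 : n * H501.crossMom n β 4 t ≤ (X0 + 1) * (1 / z) := by
    refine hR4.trans ?_
    have a1 : n * crossOverlap n β t / z ^ 392 ≤ X0 * (1 / z) := by
      calc n * crossOverlap n β t / z ^ 392 ≤ X0 / z ^ 392 :=
            div_le_div_of_nonneg_right hX (by positivity)
        _ ≤ X0 / z := div_le_div_of_nonneg_left hX00 hz0 (le_self_pow₀ hz1 (by norm_num))
        _ = X0 * (1 / z) := by ring
    have a2 : 1 / z ^ 240 ≤ 1 / z := one_div_le_one_div_of_le hz0 (le_self_pow₀ hz1 (by norm_num))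
    linarith
  have h2 : 1 / z ^ 80 ≤ 1 / z := one_div_le_one_div_of_le hz0 (le_self_pow₀ hz1 (by norm_num))
  have hb : (0 : ℝ) ≤ 2304 * β ^ 6 := by positivity
  have h3 := mul_le_mul_of_nonneg_left h1 hb
  have e : (2304 * β ^ 6) * ((((0 : ℕ) : ℝ) + 1) * qq n t ^ 0) ^ 2 = 2304 * β ^ 6 := by simp
  calc (2304 * β ^ 6) * (((((0 : ℕ) : ℝ) + 1) * qq n t ^ 0) ^ 2 * (n * H501.crossMom n β 4 t)) +
        1 / z ^ 80 = (2304 * β ^ 6) * (n * H501.crossMom n β 4 t) + 1 / z ^ 80 := by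
          rw [← mul_assoc, e]
    _ ≤ (2304 * β ^ 6) * ((X0 + 1) * (1 / z)) + 1 / z := add_le_add h3 h2
    _ = (2304 * β ^ 6 * (X0 + 1) + 1) / z := by ring
    _ ≤ ε := hsm

/-! ### the two halves -/

/-- the upper half for one column -/
theorem H1_of (sZ : StZero) (sE : StE) (sD : StD) {β : ℝ} (hβ : 1 < β) {t : ℝ} (ht : 0 < t)
    (ht1 : t < 1) {k : ℕ} (hk : 1 ≤ k) {c : ℝ}
    (hY : Tendsto (fun n : ℕ => ∫ g, (Yn β n k g - c) ^ 2 ∂(disorder n)) atTop (𝓝 0))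
    {ε : ℝ} (hε : 0 < ε) : ∀ᶠ n : ℕ in atTop, aa β n t k ≤ c ^ 2 + ε := by
  have hm := (tendsto_mn hY).pow 2
  have hv := (tendsto_var hY).const_mul 4
  rw [mul_zero] at hv
  have hε5 : 0 < ε / 5 := by linarith
  have htk : 0 < t ^ k := by positivity
  have hε' : 0 < t ^ k * (ε / 5) / 2 := by positivity
  have hlim : Tendsto (fun n : ℕ => (300 * ((k : ℝ) + 1) ^ 2) / zz0 n) atTop (𝓝 0) :=
    tendsto_const_nhds.div_atTop tendsto_zz0
  filter_upwards [params, ev_tau ht1, ev_LL ht.le ht1 k, err_small hβ ht ht1 k hε',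
    star_small hβ ht ht1 hε', fin2 hβ, hm.eventually_le_const (by linarith : c ^ 2 < c ^ 2 + ε / 5),
    hv.eventually_le_const hε5, hlim.eventually_le_const hε5, eventually_ge_atTop 1,
    (tendsto_LL ht1).eventually_ge_atTop k]
    with n hp hτ hLk herr hstar hfin h1 h2 h3 hn hkL
  obtain ⟨hz, hq1, hL, hqL, hρ, hpos, hT⟩ := hp t ht.le hτ
  obtain ⟨ha, -⟩ := hfin t ht hτ
  have hn0' : (0 : ℝ) < n := by exact_mod_cast hn
  obtain ⟨z, hzz⟩ : ∃ z, z = zz0 n := ⟨_, rfl⟩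
  have hzn : z ^ 8000 = n := by rw [hzz]; exact zz0_pow n
  rw [← hzz] at hz hL h3
  have hz0 : 0 < z := by linarith
  have hz1 : 1 ≤ z := by linarith
  -- split
  have hsplit : aa β n t k = mn β n k ^ 2 + (n : ℝ)⁻¹ * ∑ j : Fin n, nvE t (LL n t) (CC β j k) j +
      (n : ℝ)⁻¹ * ∑ j : Fin n, nvD t (LL n t) (CC β j k) j := by
    unfold aa
    have e1 : ∀ j : Fin n, nv t (LL n t) (CC β j k) j = mn β n k ^ 2 +
        nvE t (LL n t) (CC β j k) j + nvD t (LL n t) (CC β j k) j := by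
      intro j
      rw [nv_split, sZ n β j k]
    rw [Finset.sum_congr rfl fun j _ => e1 j, Finset.sum_add_distrib, Finset.sum_add_distrib]
    simp only [Finset.sum_const, Finset.card_univ, Fintype.card_fin, nsmul_eq_mul]
    field_simp
  have hLn : 4 * LL n t ≤ n := by
    have h4 : 4 * ((LL n t : ℝ)) ≤ n := by
      calc 4 * ((LL n t : ℝ)) ≤ 4 * z ^ 4 := by linarith
        _ ≤ z * z ^ 4 := mul_le_mul_of_nonneg_right (by linarith) (by positivity)
        _ = z ^ 5 := by ring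
        _ ≤ z ^ 8000 := pow_le_pow_right₀ hz1 (by norm_num)
        _ = n := hzn
    exact_mod_cast h4
  have hE := sE n β t (LL n t) k ht.le ht1.le hLn hn
  have hD := sD n β t (LL n t) k ht ht1.le hn hk
  have hr := herr (LL n t + k) (by omega) hLk
  have hs := hstar (LL n t + k)
  have hD2 : (n : ℝ)⁻¹ * ∑ j : Fin n, nvD t (LL n t) (CC β j k) j ≤ 2 * (ε / 5) := by
    have h5 : t ^ k * ((n : ℝ)⁻¹ * ∑ j : Fin n, nvD t (LL n t) (CC β j k) j) ≤
        t ^ k * (2 * (ε / 5)) := by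
      refine hD.trans ?_
      have h6 := mul_le_mul_of_nonneg_left hr (by norm_num : (0 : ℝ) ≤ 2)
      rw [← mul_assoc] at h6
      linarith
    exact le_of_mul_le_mul_left h5 htk
  have hak := ha k hkL
  have hE2 : 100 * ((LL n t : ℝ) + 1) ^ 2 / n * ((n : ℝ)⁻¹ * ∑ j : Fin n,
      nv t (LL n t) (CC β j k) j) ≤ ε / 5 := by
    have e0 : (n : ℝ)⁻¹ * ∑ j : Fin n, nv t (LL n t) (CC β j k) j = aa β n t k := rfl
    rw [e0]
    have e1 : 100 * ((LL n t : ℝ) + 1) ^ 2 / n ≤ 100 * (1 / z) := by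
      rw [← hzn]
      have e2 : ((LL n t : ℝ) + 1) ^ 2 ≤ (z ^ 4) ^ 2 := pow_le_pow_left₀ (by positivity) hL 2
      calc 100 * ((LL n t : ℝ) + 1) ^ 2 / z ^ 8000 ≤ 100 * (z ^ 4) ^ 2 / z ^ 8000 :=
            div_le_div_of_nonneg_right (by linarith) (by positivity)
        _ = 100 * (1 / z ^ 7992) := by
            rw [← pow_mul]
            field_simp
        _ ≤ 100 * (1 / z) := by
            refine mul_le_mul_of_nonneg_left ?_ (by norm_num)
            exact one_div_le_one_div_of_le hz0 (le_self_pow₀ hz1 (by norm_num))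
    calc 100 * ((LL n t : ℝ) + 1) ^ 2 / n * aa β n t k ≤
          (100 * (1 / z)) * (3 * ((k : ℝ) + 1) ^ 2) :=
          mul_le_mul e1 hak (aa_nonneg β n ht.le k) (by positivity)
      _ = (300 * ((k : ℝ) + 1) ^ 2) / z := by ring
      _ ≤ ε / 5 := h3
  rw [hsplit]
  linarith

/-- the case `k = 0` -/
theorem H1_zero {β : ℝ} (hβ : 1 < β) {t : ℝ} (ht : 0 < t) (ht1 : t < 1)
    {ε : ℝ} (hε : 0 < ε) : ∀ᶠ n : ℕ in atTop, aa β n t 0 ≤ 1 + ε := by
  have hlim : Tendsto (fun n : ℕ => (1 : ℝ) / zz0 n) atTop (𝓝 0) :=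
    tendsto_const_nhds.div_atTop tendsto_zz0
  filter_upwards [params, H432.err_num' (2 * (1 + 2304 * β ^ 6)) 2,
    eventually_ge_atTop 1, ev_tau ht1, hlim.eventually_le_const hε] with n hp herr hn hτ hsm
  obtain ⟨hz, hq1, hL, hqL, hρ, hpos, hT⟩ := hp t ht.le hτ
  have hEr : (1 + 2304 * β ^ 6) * (n : ℝ) ^ 2 * (2 * H432.errQ n (qq n t) 0) ≤
      1 / zz0 n ^ 80 := by
    have h := herr t ht.le hτ 0 (Nat.zero_le _)
    refine le_trans (le_of_eq ?_) h
    ring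
  have h := H757.h1form β hn hq1 ht.le ht1.le (LL n t) 0 hEr
  have h2 : 1 / zz0 n ^ 80 ≤ 1 / zz0 n :=
    one_div_le_one_div_of_le (by linarith) (le_self_pow₀ (by linarith) (by norm_num))
  unfold aa
  have e : ((((0 : ℕ) : ℝ) + 1) * qq n t ^ 0) ^ 2 = 1 := by simp
  rw [e] at h
  linarith

/-- the path coefficients converge -/
theorem tendsto_pn (sZ : StZero) (sC : StClose) {β : ℝ} (hβ : 1 < β) {k : ℕ} {c : ℝ}
    (hY : Tendsto (fun n : ℕ => ∫ g, (Yn β n k g - c) ^ 2 ∂(disorder n)) atTop (𝓝 0)) :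
    Tendsto (fun n => pn β n k) atTop (𝓝 c) := by
  have hm := tendsto_mn hY
  obtain ⟨t, ht, ht1⟩ : ∃ t : ℝ, 0 < t ∧ t < 1 := ⟨1 / 2, by norm_num, by norm_num⟩
  have h1 : Tendsto (fun n : ℕ => t ^ k * (pn β n k - mn β n k) ^ 2) atTop (𝓝 0) := by
    rw [Metric.tendsto_atTop]
    intro ε hε
    obtain ⟨N, hN⟩ := eventually_atTop.1 (((err_small hβ ht ht1 k (half_pos hε)).and
      (eventually_ge_atTop 1)).and (tendsto_zz0.eventually_ge_atTop ((k : ℝ) + 1)))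
    refine ⟨N, fun n hn => ?_⟩
    obtain ⟨⟨he, hn1⟩, hz⟩ := hN n hn
    have hn0' : (0 : ℝ) < n := by exact_mod_cast hn1
    have hk0 : (0 : ℝ) ≤ k := Nat.cast_nonneg k
    have hz5 : (k : ℝ) + 1 ≤ zz0 n ^ 5 :=
      hz.trans (le_self_pow₀ (by linarith) (by norm_num))
    have hc := sC n β t k ht ht1.le hn1
    have e1 : (n : ℝ)⁻¹ * ∑ j : Fin n, CC β j k j 0 = mn β n k := by
      rw [Finset.sum_congr rfl fun j _ => sZ n β j k]
      simp only [Finset.sum_const, Finset.card_univ, Fintype.card_fin, nsmul_eq_mul]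
      field_simp
    rw [e1] at hc
    have h2 := he k le_rfl hz5
    have h3 : (k * eta n k) ^ 2 ≤ ep n k k ^ 2 := by
      refine pow_le_pow_left₀ (mul_nonneg hk0 (by unfold eta; positivity)) ?_ 2
      unfold ep
      have := Real.sqrt_nonneg ((k : ℝ) / n)
      linarith
    have hS0 : 0 ≤ ∑ l ∈ range (k + 1), (n : ℝ)⁻¹ * ∑ j : Fin n, ns t k (CC β j l) :=
      Finset.sum_nonneg fun l _ => mul_nonneg (by positivity)
        (Finset.sum_nonneg fun j _ => ns_nonneg ht.le _ _)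
    have h4 := mul_le_mul_of_nonneg_right h3 hS0
    have h5 : 0 ≤ t ^ k * (pn β n k - mn β n k) ^ 2 := by positivity
    rw [Real.dist_eq, sub_zero, abs_of_nonneg h5]
    linarith
  have htk : (0 : ℝ) < t ^ k := by positivity
  have h2 : Tendsto (fun n : ℕ => (pn β n k - mn β n k) ^ 2) atTop (𝓝 0) := by
    have h3 := h1.const_mul ((t ^ k)⁻¹)
    rw [mul_zero] at h3
    refine h3.congr fun n => ?_
    rw [← mul_assoc, inv_mul_cancel₀ htk.ne', one_mul]
  have h3 : Tendsto (fun n : ℕ => |pn β n k - mn β n k|) atTop (𝓝 0) := by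
    have h4 := (Real.continuous_sqrt.tendsto 0).comp h2
    rw [Real.sqrt_zero] at h4
    refine h4.congr fun n => ?_
    simp only [Function.comp]
    exact Real.sqrt_sq_eq_abs _
  have h4 := (tendsto_zero_iff_abs_tendsto_zero _).2 h3
  have h5 := h4.add hm
  simpa using h5

/-- the lower half -/
theorem H2_of (sZ : StZero) (sL : StLow) (sC : StClose) {β : ℝ} (hβ : 1 < β) {t : ℝ} (ht : 0 < t)
    (ht1 : t < 1) {m : ℕ → ℝ}
    (hY : ∀ k, Tendsto (fun n : ℕ => ∫ g, (Yn β n k g - m k) ^ 2 ∂(disorder n)) atTop (𝓝 0))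
    (K : ℕ) {ε : ℝ} (hε : 0 < ε) : ∀ᶠ n : ℕ in atTop,
      ∑ k ∈ range K, t ^ k * m k ^ 2 - ε ≤ n * crossOverlap n β t := by
  have h1 : Tendsto (fun n : ℕ => ∑ k ∈ range (K + 1), t ^ k * pn β n k ^ 2) atTop
      (𝓝 (∑ k ∈ range (K + 1), t ^ k * m k ^ 2)) :=
    tendsto_finsetSum _ fun k _ => ((tendsto_pn sZ sC hβ (hY k)).pow 2).const_mul _
  have h2 : ∑ k ∈ range K, t ^ k * m k ^ 2 ≤ ∑ k ∈ range (K + 1), t ^ k * m k ^ 2 := by
    rw [Finset.sum_range_succ]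
    have : 0 ≤ t ^ K * m K ^ 2 := by positivity
    linarith
  filter_upwards [h1.eventually_const_le (by linarith :
    ∑ k ∈ range (K + 1), t ^ k * m k ^ 2 - ε < ∑ k ∈ range (K + 1), t ^ k * m k ^ 2),
    eventually_ge_atTop 1] with n hn hn1
  have h3 := sL n β t K ht ht1.le hn1
  linarith

/-- **The exact chaos function**, from the convergence of `n⁻¹⟨σ · U_k(W) σ⟩`. -/
theorem chaos_of (sZ : StZero) (sE : StE) (sD : StD) (sL : StLow) (sC : StClose) {β : ℝ}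
    (hβ : 1 < β) {m : ℕ → ℝ} (hm0 : m 0 = 1) (hm : ∀ k : ℕ, 0 ≤ m k ∧ m k ≤ (k : ℝ) + 1)
    (hY : ∀ k, Tendsto (fun n : ℕ => ∫ g, (Yn β n k g - m k) ^ 2 ∂(disorder n)) atTop (𝓝 0))
    {t : ℝ} (ht : 0 ≤ t) (ht1 : t < 1) :
    Tendsto (fun n : ℕ => n * crossOverlap n β t) atTop (𝓝 (∑' k : ℕ, t ^ k * m k ^ 2)) ∧
    Tendsto (fun n : ℕ => crossCov n β t) atTop
      (𝓝 (β ^ 2 / 2 * ∑' k : ℕ, t ^ (k + 2) / (k + 2) * m (k + 1) ^ 2)) := by
  have hM0 : ∀ k : ℕ, 0 ≤ m k ^ 2 := fun k => sq_nonneg _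
  have hM : ∀ k : ℕ, m k ^ 2 ≤ ((k : ℝ) + 1) ^ 2 := fun k =>
    pow_le_pow_left₀ (hm k).1 (hm k).2 2
  have hβ0 : β ≠ 0 := by positivity
  have main : ∀ s : ℝ, 0 < s → s < 1 → Tendsto (fun n : ℕ => n * crossOverlap n β s) atTop
      (𝓝 (∑' k : ℕ, s ^ k * m k ^ 2)) := by
    intro s hs hs1
    refine lim_overlap hβ hs hs1 hM0 hM (fun k ε hε => ?_) fun K ε hε =>
      H2_of sZ sL sC hβ hs hs1 hY K hε
    rcases Nat.eq_zero_or_pos k with h0 | h0
    · subst h0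
      rw [hm0, one_pow]
      exact H1_zero hβ hs hs1 hε
    · exact H1_of sZ sE sD hβ hs hs1 h0 (hY k) hε
  have hsplit : ∀ s : ℝ, 0 ≤ s → s < 1 → ∑' k : ℕ, s ^ (k + 1) / ((k : ℝ) + 1) * m k ^ 2 =
      s + ∑' k : ℕ, s ^ (k + 2) / ((k : ℝ) + 2) * m (k + 1) ^ 2 := by
    intro s hs hs1
    have hsum : Summable fun k : ℕ => s ^ (k + 1) / ((k : ℝ) + 1) * m k ^ 2 := by
      refine Summable.of_nonneg_of_le (fun k => by positivity) (fun k => ?_)
        (summable_M hs hs1 hM0 hM)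
      refine mul_le_mul_of_nonneg_right ?_ (hM0 k)
      rw [div_le_iff₀ (by positivity), pow_succ]
      have h1 : (0 : ℝ) ≤ k := Nat.cast_nonneg k
      have h2 : 0 ≤ s ^ k := by positivity
      nlinarith
    rw [hsum.tsum_eq_zero_add]
    congr 1
    · rw [hm0]
      simp
    · refine tsum_congr fun k => ?_
      push_cast
      rw [add_assoc]
      norm_num
      ring_nf
      simp
  rcases ht.lt_or_eq with h | h
  · refine ⟨main t h ht1, ?_⟩
    have h2 := lim_cov hβ h ht1 hM0 hM main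
    rw [hsplit t ht ht1, add_sub_cancel_left] at h2
    exact h2
  · subst h
    constructor
    · have h0 : ∑' k : ℕ, (0 : ℝ) ^ k * m k ^ 2 = 1 := by
        rw [tsum_eq_single 0]
        · simp [hm0]
        · intro k hk
          simp [hk]
      rw [h0]
      have hcont : Tendsto (fun s : ℝ => ∑' k : ℕ, s ^ k * m k ^ 2) (𝓝[>] 0) (𝓝 1) := by
        have h3 : Tendsto (fun s : ℝ => ∑' k : ℕ, s ^ k * m k ^ 2) (𝓝[>] 0)
            (𝓝 (∑' k : ℕ, (0 : ℝ) ^ k * m k ^ 2)) := by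
          refine tendsto_tsum_of_dominated_convergence
            (summable_M (t := 1 / 2) (by norm_num) (by norm_num) hM0 hM) (fun k => ?_) ?_
          · exact (((continuous_pow k).tendsto 0).mono_left nhdsWithin_le_nhds).mul_const _
          · have h4 : ∀ᶠ s : ℝ in 𝓝[>] 0, s < 1 / 2 :=
              nhdsWithin_le_nhds (Iio_mem_nhds (by norm_num))
            filter_upwards [h4, self_mem_nhdsWithin] with s hs1 hs0 k
            have hs0' : 0 < s := hs0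
            rw [Real.norm_eq_abs, abs_of_nonneg (by positivity)]
            exact mul_le_mul_of_nonneg_right (pow_le_pow_left₀ hs0'.le hs1.le k) (hM0 k)
        rwa [h0] at h3
      rw [Metric.tendsto_atTop]
      intro ε hε
      have h50 : ∀ᶠ s : ℝ in 𝓝[>] 0, s < 1 :=
        nhdsWithin_le_nhds (Iio_mem_nhds (by norm_num))
      have h51 : ∀ᶠ s : ℝ in 𝓝[>] 0, 0 < s := self_mem_nhdsWithin
      obtain ⟨s, hs, hs1', hs0'⟩ := ((hcont.eventually_le_const
        (by linarith : (1 : ℝ) < 1 + ε / 2)).and (h50.and h51)).exists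
      obtain ⟨N, hN⟩ := eventually_atTop.1 (((main s hs0' hs1').eventually_le_const
        (by linarith : ∑' k : ℕ, s ^ k * m k ^ 2 < ∑' k : ℕ, s ^ k * m k ^ 2 + ε / 4)).and
        (eventually_ge_atTop 1))
      refine ⟨N, fun n hn => ?_⟩
      obtain ⟨h6, hn1⟩ := hN n hn
      have h7 := crossOverlap_mono n β hn1 hβ0 le_rfl hs0'.le hs1'.le
      have h8 := prof_nonneg n β hn1 le_rfl zero_le_one
      unfold prof at h8
      have h9 : 0 < β ^ 2 / 2 := by positivity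
      have h10 : 0 ≤ n * crossOverlap n β 0 - 1 := nonneg_of_mul_nonneg_right h8 h9
      rw [Real.dist_eq, abs_lt]
      constructor <;> linarith
    · have h1 : ∑' k : ℕ, (0 : ℝ) ^ (k + 2) / ((k : ℝ) + 2) * m (k + 1) ^ 2 = 0 := by
        simp
      rw [h1, mul_zero]
      refine tendsto_const_nhds.congr' ?_
      filter_upwards [eventually_ge_atTop 1] with n hn
      rw [crossCov_formula n β hn le_rfl zero_le_one]
      simp

end Vale.Agent.P146.R3
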