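import Vale.Agent.P146.R3.Def2
import Vale.Agent.P146.R3.H597.Half
import Vale.Agent.P146.R3.H924.RowE
import Vale.Agent.P146.R3.H316.StD
import Vale.Agent.P146.R3.H536.Low
import Vale.Agent.P146.R3.H501.Hy
import Vale.Agent.P146.R3.H952.Plug

/-!
# P146: the exact chaos function
-/

open MeasureTheory ProbabilityTheory Filter Topology Set

namespace Vale.Agent.P146.R3

open Vale.Agent.P146 Vale.Agent.P146.H605 Vale.Agent.P146.R3.H952

theorem hypF (b : ℝ) : HypF b := fun k => by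
  obtain ⟨f, h1, h2, -⟩ := H501.n4_sk b k
  exact ⟨f, h1, h2⟩

theorem exists_prof {β : ℝ} : ∃ x, MinProf β x := by
  obtain ⟨f, -, h2, -⟩ := H501.n4_sk β 0
  exact exists_minProf (h2 0)

lemma mk_zero (β : ℝ) (x : ℝ → ℝ) : mk β x 0 = 1 := by
  unfold mk
  simp

lemma mk_mem {β : ℝ} (hβ : 0 < β) {x : ℝ → ℝ} (hx : MinProf β x) (k : ℕ) :
    0 ≤ mk β x k ∧ mk β x k ≤ (k : ℝ) + 1 := by
  have h01 : ∀ y ∈ Icc (0 : ℝ) 1, 0 ≤ ll β x y := fun y hy => ll_nonneg hβ hx.1 hx.2.1 hy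
  have hc := ll_cont hβ hx.1 hx.2.1
  have h1 : 0 ≤ ∫ y in (0 : ℝ)..1, ll β x y ^ k :=
    intervalIntegral.integral_nonneg zero_le_one fun y hy => pow_nonneg (h01 y hy) k
  have hi : IntervalIntegrable (fun y => ll β x y ^ k) volume 0 1 := by
    refine ContinuousOn.intervalIntegrable ?_
    rw [uIcc_of_le zero_le_one]
    exact hc.pow k
  have h2 : ∫ y in (0 : ℝ)..1, ll β x y ^ k ≤ ∫ y in (0 : ℝ)..1, (1 : ℝ) :=
    intervalIntegral.integral_mono_on zero_le_one hi intervalIntegrable_const fun y hy =>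
      pow_le_one₀ (h01 y hy) (ll_le_one _ _ _)
  rw [intervalIntegral.integral_const, sub_zero, one_smul] at h2
  unfold mk
  have hk : (0 : ℝ) ≤ (k : ℝ) + 1 := by positivity
  refine ⟨mul_nonneg hk h1, ?_⟩
  have := mul_le_mul_of_nonneg_left h2 hk
  linarith

/-- the convergence of `n⁻¹⟨σ · U_k(W) σ⟩` -/
theorem hY {β : ℝ} (hβ : 0 < β) {x : ℝ → ℝ} (hx : MinProf β x) (k : ℕ) :
    Tendsto (fun n : ℕ => ∫ g, (Yn β n k g - mk β x k) ^ 2 ∂(disorder n)) atTop (𝓝 0) := by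
  obtain ⟨f, h1, h2, h3⟩ := H501.n4_sk β k
  exact (h3 _ (deriv_prof hβ hx k h1 h2)).2

/-- **The exact chaos function.** -/
theorem exact_chaos {β : ℝ} (hβ : 1 < β) {x : ℝ → ℝ} (hx : MinProf β x) {t : ℝ} (ht : 0 ≤ t)
    (ht1 : t < 1) :
    Tendsto (fun n : ℕ => n * crossOverlap n β t) atTop (𝓝 (∑' k : ℕ, t ^ k * mk β x k ^ 2)) ∧
    Tendsto (fun n : ℕ => crossCov n β t) atTop (𝓝 (Kinf β x t)) :=
  chaos_of H924.stZero H924.stE H316.stD H536.stLow H536.stClose hβ (mk_zero β x)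
    (fun k => mk_mem (by linarith) hx k) (fun k => hY (by linarith) hx k) ht ht1

/-- the path coefficients converge -/
theorem pn_lim {β : ℝ} (hβ : 1 < β) {x : ℝ → ℝ} (hx : MinProf β x) (k : ℕ) :
    Tendsto (fun n => pn β n k) atTop (𝓝 (mk β x k)) :=
  tendsto_pn H924.stZero H536.stClose hβ (hY (by linarith) hx k)

/-- the profile is unique -/
theorem prof_unique {β : ℝ} (hβ : 0 < β) {x x' : ℝ → ℝ} (hx : MinProf β x)
    (hx' : MinProf β x') : ∀ y ∈ Icc (0 : ℝ) 1, ll β x y = ll β x' y :=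
  ll_unique hβ (hypR hβ) (hypI β) (hypF β) hx hx'

end Vale.Agent.P146.R3
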