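import Vale.Agent.P146.R3.H597.Exact
import Vale.Agent.P146.R3.H732.Clt2
import Vale.Agent.P146.R3.H43.Tr
import Vale.Agent.P146.H605.Defs

/-!
# P146: the central limit theorem for the smoothed free energies
-/

open MeasureTheory ProbabilityTheory Filter Topology Set

namespace Vale.Agent.P146.R3

open Vale.Agent.P146 Vale.Agent.P146.H605 Vale.Agent.P146.R3.H952

theorem chebLim : H732.ChebLim := fun k l => H43.cheb_sum_conv k l

/-- **Central limit theorem** for the conditional expectations of the free energy. -/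
theorem clt_plug {β : ℝ} (hβ : 1 < β) {x : ℝ → ℝ} (hx : MinProf β x) {r : ℕ} (c τ : Fin r → ℝ)
    (hτ : ∀ i, 0 ≤ τ i ∧ τ i < 1) (φ : BoundedContinuousFunction ℝ ℝ) :
    Tendsto (fun n : ℕ => ∫ z, φ (∑ i, c i *
      ((∫ g, freeEnergy n β (mixed n (τ i) z g) ∂(disorder n)) -
        ∫ g, freeEnergy n β g ∂(disorder n))) ∂(disorder n)) atTop
      (𝓝 (∫ y, φ y ∂(gaussianReal 0
        (∑ i, ∑ j, c i * c j * Kinf β x (Real.sqrt (τ i * τ j))).toNNReal))) := by
  have hβ0 : 0 < β := by linarith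
  have hm : ∀ k : ℕ, |mk β x k| ≤ (k : ℝ) + 1 := fun k => by
    rw [abs_of_nonneg (mk_mem hβ0 hx k).1]
    exact (mk_mem hβ0 hx k).2
  have h := H732.clt (β := β) (m := mk β x) (s := Finset.univ) (c := c) (τ := τ)
    hβ0.ne' (mk_zero β x) hm chebLim (fun k => pn_lim hβ hx k)
    (fun t ht ht1 => (exact_chaos hβ hx ht ht1).1) (fun i _ => hτ i) φ
  exact h

end Vale.Agent.P146.R3
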