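import Vale.Agent.P146.R3.Def
import Vale.Agent.P166.Bdl.B2

/-!
# P146: differentiability of the limiting pressure in the direction of `U_k(W)`
-/

open MeasureTheory Finset Filter Topology

namespace Vale.Agent.P146.R3

open Vale.Agent.P166 Vale.Agent.P157.Par

/-- the profile `Λ_q(y) = ∫_y^1 x(u) du` of a path -/
noncomputable def prf (k : ℕ) (m q : ℕ → ℝ) (y : ℝ) : ℝ :=
  1 - y - ∑ l ∈ range (k + 1), (m (l + 1) - m l) * max (q l - y) 0

section prf

variable {k : ℕ} {m q : ℕ → ℝ}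

lemma wsum (hm : Exponents k m) : ∑ l ∈ range (k + 1), (m (l + 1) - m l) = 1 := by
  rw [Finset.sum_range_sub, hm.1, hm.2.1]
  ring

lemma w_nonneg (hm : Exponents k m) {l : ℕ} (hl : l ∈ range (k + 1)) : 0 ≤ m (l + 1) - m l := by
  have := hm.2.2 l (by rw [mem_range] at hl; omega)
  linarith

lemma prf_eq (hm : Exponents k m) (y : ℝ) :
    prf k m q y = ∑ l ∈ range (k + 1), (m (l + 1) - m l) * (1 - max (q l) y) := by
  unfold prf
  have h : ∑ l ∈ range (k + 1), (m (l + 1) - m l) * (1 - max (q l) y) =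
      ∑ l ∈ range (k + 1), (m (l + 1) - m l) * (1 - y) -
        ∑ l ∈ range (k + 1), (m (l + 1) - m l) * max (q l - y) 0 := by
    rw [← Finset.sum_sub_distrib]
    refine Finset.sum_congr rfl fun l _ => ?_
    have : max (q l - y) 0 = max (q l) y - y := by
      rw [← max_sub_sub_right, sub_self]
    rw [this]
    ring
  rw [h, ← Finset.sum_mul, wsum hm, one_mul]

lemma path_le (hq : Path k q) : ∀ l ≤ k, q l ≤ q k := by
  intro l hl
  induction k with
  | zero => rw [Nat.le_zero.1 hl]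
  | succ n ih =>
    rcases Nat.lt_or_ge n l with h | h
    · have : l = n + 1 := by omega
      rw [this]
    · exact (ih ⟨hq.1, fun l hl => hq.2 l (by omega)⟩ h).trans (hq.2 n (by omega))

lemma prf_anti (hm : Exponents k m) {y z : ℝ} (h : y ≤ z) : prf k m q z ≤ prf k m q y := by
  rw [prf_eq hm, prf_eq hm]
  refine Finset.sum_le_sum fun l hl => mul_le_mul_of_nonneg_left ?_ (w_nonneg hm hl)
  have := max_le_max_left (q l) h
  linarith

lemma prf_lip (hm : Exponents k m) (y z : ℝ) : |prf k m q y - prf k m q z| ≤ |y - z| := by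
  rw [prf_eq hm, prf_eq hm, ← Finset.sum_sub_distrib]
  refine (Finset.abs_sum_le_sum_abs _ _).trans ?_
  have h : ∀ l ∈ range (k + 1), |(m (l + 1) - m l) * (1 - max (q l) y) -
      (m (l + 1) - m l) * (1 - max (q l) z)| ≤ (m (l + 1) - m l) * |y - z| := by
    intro l hl
    rw [← mul_sub, abs_mul, abs_of_nonneg (w_nonneg hm hl)]
    refine mul_le_mul_of_nonneg_left ?_ (w_nonneg hm hl)
    have h1 := abs_max_sub_max_le_abs y z (q l)
    have e : 1 - max (q l) y - (1 - max (q l) z) = -(max y (q l) - max z (q l)) := by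
      rw [max_comm y, max_comm z]; ring
    rw [e, abs_neg]
    exact h1
  refine (Finset.sum_le_sum h).trans ?_
  rw [← Finset.sum_mul, wsum hm, one_mul]

lemma prf_nonneg (hm : Exponents k m) (hq : Path k q) (hq1 : q k ≤ 1) {y : ℝ} (hy : y ≤ 1) :
    0 ≤ prf k m q y := by
  rw [prf_eq hm]
  refine Finset.sum_nonneg fun l hl => mul_nonneg (w_nonneg hm hl) ?_
  have : max (q l) y ≤ 1 := max_le ((path_le hq l (by rw [mem_range] at hl; omega)).trans hq1) hy
  linarith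

lemma prf_le (hm : Exponents k m) {y : ℝ} : prf k m q y ≤ 1 - y := by
  rw [prf_eq hm]
  have h : ∑ l ∈ range (k + 1), (m (l + 1) - m l) * (1 - max (q l) y) ≤
      ∑ l ∈ range (k + 1), (m (l + 1) - m l) * (1 - y) := by
    refine Finset.sum_le_sum fun l hl => mul_le_mul_of_nonneg_left ?_ (w_nonneg hm hl)
    have := le_max_right (q l) y
    linarith
  rwa [← Finset.sum_mul, wsum hm, one_mul] at h

lemma prf_pos (hm : Exponents k m) (hq : Path k q) (hq1 : q k < 1) {y : ℝ} (hy : y < 1) :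
    0 < prf k m q y := by
  rw [prf_eq hm]
  refine Finset.sum_pos (fun l hl => mul_pos ?_ ?_) ⟨0, by simp⟩
  · have := hm.2.2 l (by rw [mem_range] at hl; omega)
    linarith
  · have : max (q l) y < 1 := max_lt ((path_le hq l (by rw [mem_range] at hl; omega)).trans_lt hq1) hy
    linarith

end prf

/-- the values for two laws differ by the spectral parts -/
lemma isLUB_shift {k : ℕ} {m q : ℕ → ℝ} {b y : ℝ} {μ ν : Measure ℝ}
    (h : IsLUB {x : ℝ | ∃ r : ℕ → ℝ, Path k r ∧ x = Jf b μ k m q r} y) :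
    IsLUB {x : ℝ | ∃ r : ℕ → ℝ, Path k r ∧ x = Jf b ν k m q r}
      (y + (specPart b ν k m q - specPart b μ k m q)) := by
  constructor
  · rintro x ⟨r, hr, rfl⟩
    have h1 := h.1 ⟨r, hr, rfl⟩
    unfold Jf at h1 ⊢
    linarith
  · intro c hc
    have h1 : y ≤ c - (specPart b ν k m q - specPart b μ k m q) := by
      refine h.2 ?_
      rintro x ⟨r, hr, rfl⟩
      have h2 := hc ⟨r, hr, rfl⟩
      unfold Jf at h2 ⊢
      linarith
    linarith

lemma expo_of {k : ℕ} {m : ℕ → ℝ} (hm : Exponents k m) : F.Expo k m where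
  m0 := hm.1
  mK := hm.2.1
  mono := fun l hl => (hm.2.2 l hl).le
  pos := by have := hm.2.2 0 (Nat.zero_le k); rw [hm.1] at this; exact this

/-- the difference of the spectral parts at `β = 1` -/
lemma spec_sub {k : ℕ} {m q : ℕ → ℝ} {μ ν : Measure ℝ} [IsProbabilityMeasure μ]
    [IsProbabilityMeasure ν] (hμ : IsCompact μ.support) (hν : IsCompact ν.support)
    (hm : Exponents k m) (hq : Path k q) (hq0 : q 0 = 0) (hq1 : q k < 1) :
    specPart 1 ν k m q - specPart 1 μ k m q =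
      1 / 2 * ∫ s in (0 : ℝ)..1, (Rt ν (prf k m q s) - Rt μ (prf k m q s)) := by
  have i1 := F.rt2_ii hμ one_pos (expo_of hm) hq0 hq.2 hq1.le
  have i2 := F.rt2_ii hν one_pos (expo_of hm) hq0 hq.2 hq1.le
  unfold specPart
  rw [← mul_sub, ← intervalIntegral.integral_sub i2 i1]
  simp only [one_mul, prf]

/-- the R-transforms of the laws `muS β k s`: the interface with the scalar analysis -/
def RDiff (β : ℝ) (k : ℕ) : Prop :=
  ∀ ε : ℝ, 0 < ε → ∃ δ : ℝ, 0 < δ ∧ ∀ s y : ℝ, |s| ≤ δ → 0 < y → y ≤ 1 →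
    |Rt (muS β k s) y - Rt (muS β k 0) y - 2 * s * ((k + 1) * (min (β * y) 1) ^ k)| ≤ ε * |s|

/-- admissible parameters -/
structure Par3 where
  k : ℕ
  m : ℕ → ℝ
  q : ℕ → ℝ
  hm : Exponents k m
  hq : Path k q
  hq0 : q 0 = 0
  hq1 : q k < 1

/-- the profile of parameters -/
noncomputable def Par3.L (θ : Par3) (y : ℝ) : ℝ := prf θ.k θ.m θ.q y

/-- the value at parameters -/
def Par3.Val (θ : Par3) (b : ℝ) (μ : Measure ℝ) (y : ℝ) : Prop :=
  IsLUB {x : ℝ | ∃ r : ℕ → ℝ, Path θ.k r ∧ x = Jf b μ θ.k θ.m θ.q r} y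

lemma mem_PV {b : ℝ} {μ : Measure ℝ} {y : ℝ} : y ∈ PV b μ ↔ ∃ θ : Par3, θ.Val b μ y := by
  constructor
  · rintro ⟨k, m, q, hm, hq, hq0, hq1, h⟩
    exact ⟨⟨k, m, q, hm, hq, hq0, hq1⟩, h⟩
  · rintro ⟨θ, h⟩
    exact ⟨θ.k, θ.m, θ.q, θ.hm, θ.hq, θ.hq0, θ.hq1, h⟩

lemma Par3.L_mem (θ : Par3) {y : ℝ} (h0 : 0 ≤ y) (h1 : y ≤ 1) : θ.L y ∈ Set.Icc (0 : ℝ) 1 :=
  ⟨prf_nonneg θ.hm θ.hq θ.hq1.le h1, (prf_le θ.hm).trans (by linarith)⟩

/-- the upper bound at given parameters -/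
lemma val_bound {β : ℝ} {k : ℕ} (hp : ∀ s, IsProbabilityMeasure (muS β k s))
    (hc : ∀ s, IsCompact (muS β k s).support) {f : ℝ → ℝ} {s ε : ℝ}
    (hε : 0 ≤ ε)
    (hR : ∀ y : ℝ, 0 < y → y ≤ 1 → |Rt (muS β k s) y - Rt (muS β k 0) y -
      2 * s * ((k + 1) * (min (β * y) 1) ^ k)| ≤ ε * |s|)
    (hf : IsGLB (PV 1 (muS β k s)) (f s)) (θ : Par3) {v : ℝ} (hv : θ.Val 1 (muS β k 0) v) :
    f s ≤ v + s * ((k + 1) * ∫ y in (0 : ℝ)..1, (min (β * θ.L y) 1) ^ k) + ε * |s| := by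
  have h1 := isLUB_shift (ν := muS β k s) hv
  have h2 : f s ≤ v + (specPart 1 (muS β k s) θ.k θ.m θ.q - specPart 1 (muS β k 0) θ.k θ.m θ.q) :=
    hf.1 (mem_PV.2 ⟨θ, h1⟩)
  have := hp s
  have := hp 0
  rw [spec_sub (hc 0) (hc s) θ.hm θ.hq θ.hq0 θ.hq1] at h2
  have i1 : IntervalIntegrable (fun y => Rt (muS β k s) (prf θ.k θ.m θ.q y) -
      Rt (muS β k 0) (prf θ.k θ.m θ.q y)) volume 0 1 := by
    have i1 := F.rt2_ii (hc 0) one_pos (expo_of θ.hm) θ.hq0 θ.hq.2 θ.hq1.le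
    have i2 := F.rt2_ii (hc s) one_pos (expo_of θ.hm) θ.hq0 θ.hq.2 θ.hq1.le
    have i3 := i2.sub i1
    simpa only [one_mul, prf] using i3
  have hcont : Continuous fun y : ℝ => (min (β * θ.L y) 1) ^ k := by
    have hL : Continuous θ.L := by
      unfold Par3.L prf
      fun_prop
    fun_prop
  have i2 : IntervalIntegrable (fun y : ℝ => 2 * s * ((k + 1) * (min (β * θ.L y) 1) ^ k) +
      ε * |s|) volume 0 1 :=
    (Continuous.intervalIntegrable (by fun_prop) _ _)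
  have h3 : ∫ y in (0 : ℝ)..1, (Rt (muS β k s) (prf θ.k θ.m θ.q y) -
      Rt (muS β k 0) (prf θ.k θ.m θ.q y)) ≤
      ∫ y in (0 : ℝ)..1, (2 * s * ((k + 1) * (min (β * θ.L y) 1) ^ k) + ε * |s|) := by
    refine intervalIntegral.integral_mono_on_of_le_Ioo zero_le_one i1 i2 fun y hy => ?_
    have hy0 : 0 < prf θ.k θ.m θ.q y := prf_pos θ.hm θ.hq θ.hq1 hy.2
    have hy1 : prf θ.k θ.m θ.q y ≤ 1 := (prf_le θ.hm).trans (by linarith [hy.1])
    have h4 := (abs_le.1 (hR _ hy0 hy1)).2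
    unfold Par3.L
    linarith
  have h4 : ∫ y in (0 : ℝ)..1, (2 * s * ((k + 1) * (min (β * θ.L y) 1) ^ k) + ε * |s|) =
      2 * (s * ((k + 1) * ∫ y in (0 : ℝ)..1, (min (β * θ.L y) 1) ^ k)) + ε * |s| := by
    rw [intervalIntegral.integral_add (Continuous.intervalIntegrable (by fun_prop) _ _)
      (Continuous.intervalIntegrable (by fun_prop) _ _), intervalIntegral.integral_const_mul,
      intervalIntegral.integral_const_mul]
    simp only [intervalIntegral.integral_const, sub_zero, smul_eq_mul, one_mul]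
    ring
  rw [h4] at h3
  have h5 : 0 ≤ ε * |s| := by positivity
  linarith

end Vale.Agent.P146.R3
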