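import Vale.Agent.P146.R3.H597.Dan

/-!
# P146: differentiability of the limiting pressure in the direction of `U_k(W)`: compactness and
conclusion
-/

open MeasureTheory Finset Filter Topology

namespace Vale.Agent.P146.R3

open Vale.Agent.P166 Vale.Agent.P157.Par

/-- **Compactness of the profiles.** -/
theorem exists_profile (θ : ℕ → Par3) : ∃ L : ℝ → ℝ,
    (∀ y ∈ Set.Icc (0 : ℝ) 1, L y ∈ Set.Icc (0 : ℝ) 1) ∧
    (∀ y ∈ Set.Icc (0 : ℝ) 1, ∀ z ∈ Set.Icc (0 : ℝ) 1, |L y - L z| ≤ |y - z|) ∧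
    (∀ y ∈ Set.Icc (0 : ℝ) 1, ∀ z ∈ Set.Icc (0 : ℝ) 1, y ≤ z → L z ≤ L y) ∧
    ∀ ε : ℝ, 0 < ε → ∀ᶠ j in (hyperfilter ℕ : Filter ℕ), ∀ y ∈ Set.Icc (0 : ℝ) 1,
      |(θ j).L y - L y| ≤ ε := by
  have h1 : ∀ y : ℝ, y ∈ Set.Icc (0 : ℝ) 1 → ∃ l : ℝ, l ∈ Set.Icc (0 : ℝ) 1 ∧
      Tendsto (fun j => (θ j).L y) (hyperfilter ℕ) (𝓝 l) := by
    intro y hy
    have h2 : Set.Icc (0 : ℝ) 1 ∈ Ultrafilter.map (fun j => (θ j).L y) (hyperfilter ℕ) :=
      Ultrafilter.mem_map.2 (Filter.univ_mem' fun j => (θ j).L_mem hy.1 hy.2)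
    obtain ⟨l, hl, hl2⟩ := (isCompact_Icc (a := (0 : ℝ)) (b := 1)).ultrafilter_le_nhds
      (Ultrafilter.map (fun j => (θ j).L y) (hyperfilter ℕ)) (le_principal_iff.2 h2)
    exact ⟨l, hl, hl2⟩
  choose! L hL hlim using h1
  refine ⟨L, hL, ?_, ?_, ?_⟩
  · intro y hy z hz
    refine le_of_tendsto ((hlim y hy).sub (hlim z hz)).abs
      (Eventually.of_forall fun j => prf_lip (θ j).hm y z)
  · intro y hy z hz h
    exact le_of_tendsto_of_tendsto' (hlim z hz) (hlim y hy) fun j => prf_anti (θ j).hm h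
  · intro ε hε
    obtain ⟨N, hN⟩ := exists_nat_gt (3 / ε)
    have hN0 : (0 : ℝ) < N := lt_trans (by positivity) hN
    have hgrid : ∀ i ∈ range (N + 1), ∀ᶠ j in (hyperfilter ℕ : Filter ℕ),
        |(θ j).L ((i : ℝ) / N) - L ((i : ℝ) / N)| ≤ ε / 3 := by
      intro i hi
      rw [mem_range] at hi
      have hi' : (i : ℝ) ≤ N := by exact_mod_cast Nat.lt_succ_iff.1 hi
      have hmem : (i : ℝ) / N ∈ Set.Icc (0 : ℝ) 1 :=
        ⟨by positivity, (div_le_one hN0).2 hi'⟩
      have h2 := (hlim _ hmem).eventually (Metric.closedBall_mem_nhds _ (by positivity :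
        (0 : ℝ) < ε / 3))
      exact h2
    have hall := (Filter.eventually_all_finset (range (N + 1))).2 hgrid
    filter_upwards [hall] with j hj y hy
    -- the grid point
    obtain ⟨i, hi⟩ : ∃ i : ℕ, i = ⌊y * N⌋₊ := ⟨_, rfl⟩
    have hi1 : (i : ℝ) ≤ y * N := by rw [hi]; exact Nat.floor_le (mul_nonneg hy.1 hN0.le)
    have hi2 : y * N < i + 1 := by rw [hi]; exact Nat.lt_floor_add_one _
    have hiN : i ≤ N := by
      have : (i : ℝ) ≤ N := hi1.trans (by nlinarith [hy.2])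
      exact_mod_cast this
    have hmem : (i : ℝ) / N ∈ Set.Icc (0 : ℝ) 1 :=
      ⟨by positivity, (div_le_one hN0).2 (by exact_mod_cast hiN)⟩
    have hd : |y - (i : ℝ) / N| ≤ ε / 3 := by
      have e1 : y - (i : ℝ) / N = (y * N - i) / N := by field_simp
      rw [e1, abs_of_nonneg (div_nonneg (by linarith) hN0.le), div_le_iff₀ hN0]
      rw [div_lt_iff₀ hε] at hN
      nlinarith
    have h3 := hj i (mem_range.2 (by omega))
    have h4 : |(θ j).L y - (θ j).L ((i : ℝ) / N)| ≤ ε / 3 := (prf_lip (θ j).hm _ _).trans hd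
    have h5 : |L ((i : ℝ) / N) - L y| ≤ ε / 3 := by
      refine le_trans ?_ hd
      rw [abs_sub_comm]
      exact le_of_tendsto ((hlim y hy).sub (hlim _ hmem)).abs
        (Eventually.of_forall fun j => prf_lip (θ j).hm _ _)
    calc |(θ j).L y - L y| = |((θ j).L y - (θ j).L ((i : ℝ) / N)) +
          ((θ j).L ((i : ℝ) / N) - L ((i : ℝ) / N)) + (L ((i : ℝ) / N) - L y)| := by ring_nf
      _ ≤ |(θ j).L y - (θ j).L ((i : ℝ) / N)| + |(θ j).L ((i : ℝ) / N) - L ((i : ℝ) / N)| +
          |L ((i : ℝ) / N) - L y| := abs_add_three _ _ _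
      _ ≤ ε := by linarith

/-- a convex function below a differentiable function -/
lemma hasDerivAt_of_convex {f : ℝ → ℝ} {s₀ c : ℝ} (hs₀ : 0 < s₀)
    (hf : ConvexOn ℝ (Set.Icc (-s₀) s₀) f)
    (h : ∀ ε : ℝ, 0 < ε → ∃ δ : ℝ, 0 < δ ∧ ∀ s : ℝ, |s| ≤ δ → f s ≤ f 0 + s * c + ε * |s|) :
    HasDerivAt f c 0 := by
  rw [hasDerivAt_iff_isLittleO, Asymptotics.isLittleO_iff]
  intro ε hε
  obtain ⟨δ, hδ, hb⟩ := h ε hε
  have hmin : 0 < min δ s₀ := lt_min hδ hs₀
  filter_upwards [Metric.ball_mem_nhds (0 : ℝ) hmin] with s hs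
  rw [Metric.mem_ball, dist_zero_right, Real.norm_eq_abs] at hs
  have h1 : |s| ≤ δ := hs.le.trans (min_le_left _ _)
  have h2 : |s| ≤ s₀ := hs.le.trans (min_le_right _ _)
  have h3 := hb s h1
  have h4 := hb (-s) (by rwa [abs_neg])
  rw [abs_neg] at h4
  obtain ⟨ha, hb'⟩ := abs_le.1 h2
  have h5 := hf.2 (⟨ha, hb'⟩ : s ∈ Set.Icc (-s₀) s₀)
    (⟨by linarith, by linarith⟩ : -s ∈ Set.Icc (-s₀) s₀)
    (by norm_num : (0 : ℝ) ≤ 1 / 2) (by norm_num : (0 : ℝ) ≤ 1 / 2) (by norm_num)
  simp only [smul_eq_mul] at h5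
  have e : 1 / 2 * s + 1 / 2 * -s = 0 := by ring
  rw [e] at h5
  rw [Real.norm_eq_abs, Real.norm_eq_abs, sub_zero, smul_eq_mul, abs_le]
  constructor <;> linarith

/-- **Differentiability.** For every `β > 0` there is a profile `ℓ` such that every convex function
which is the value of the variational problem for the laws of `β x + 2 s U_k(x)` has the derivative
`(k+1) ∫ ℓ^k` at `0`. -/
theorem danskin {β : ℝ} (hβ : 0 < β) (hR : ∀ k, RDiff β k)
    (hp : ∀ k s, IsProbabilityMeasure (muS β k s)) (hc : ∀ k s, IsCompact (muS β k s).support) :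
    ∃ L : ℝ → ℝ, (∀ y ∈ Set.Icc (0 : ℝ) 1, L y ∈ Set.Icc (0 : ℝ) 1) ∧
      (∀ y ∈ Set.Icc (0 : ℝ) 1, ∀ z ∈ Set.Icc (0 : ℝ) 1, |L y - L z| ≤ |y - z|) ∧
      (∀ y ∈ Set.Icc (0 : ℝ) 1, ∀ z ∈ Set.Icc (0 : ℝ) 1, y ≤ z → L z ≤ L y) ∧
      (∀ p : ℝ, IsGLB (PV 1 (muS β 0 0)) p → ∀ ε : ℝ, 0 < ε → ∃ (θ : Par3) (v : ℝ),
        θ.Val 1 (muS β 0 0) v ∧ v < p + ε ∧ ∀ y ∈ Set.Icc (0 : ℝ) 1, |θ.L y - L y| ≤ ε) ∧
      ∀ (k : ℕ) (f : ℝ → ℝ) (s₀ : ℝ), 0 < s₀ → ConvexOn ℝ (Set.Icc (-s₀) s₀) f →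
        (∀ s : ℝ, |s| ≤ s₀ → IsGLB (PV 1 (muS β k s)) (f s)) →
        HasDerivAt f ((k + 1) * ∫ y in (0 : ℝ)..1, (min (β * L y) 1) ^ k) 0 := by
  have hmu : ∀ k, muS β k 0 = muS β 0 0 := by
    intro k
    unfold muS
    congr 1
    funext x
    simp [hs]
  by_cases hex : ∃ p : ℝ, IsGLB (PV 1 (muS β 0 0)) p
  · obtain ⟨p, hp0⟩ := hex
    have h1 : ∀ j : ℕ, ∃ (θ : Par3) (v : ℝ), θ.Val 1 (muS β 0 0) v ∧ v < p + 1 / ((j : ℝ) + 1) := by
      intro j
      obtain ⟨v, hv, -, hv2⟩ := hp0.exists_between (b := p + 1 / ((j : ℝ) + 1)) (by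
        have : (0 : ℝ) < 1 / ((j : ℝ) + 1) := by positivity
        linarith)
      obtain ⟨θ, hθ⟩ := mem_PV.1 hv
      exact ⟨θ, v, hθ, hv2⟩
    choose θ v hv hvp using h1
    obtain ⟨L, hL1, hL2, hL3, hL4⟩ := exists_profile θ
    have hsmall : ∀ ε : ℝ, 0 < ε → ∀ᶠ j in (hyperfilter ℕ : Filter ℕ), v j < p + ε := by
      intro ε hε
      have h2 : ∀ᶠ j : ℕ in atTop, 1 / ((j : ℝ) + 1) < ε :=
        (tendsto_order.1 tendsto_one_div_add_atTop_nhds_zero_nat).2 _ hε
      have h3 : (hyperfilter ℕ : Filter ℕ) ≤ atTop := Nat.hyperfilter_le_atTop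
      filter_upwards [h3 h2] with j hj
      linarith [hvp j]
    refine ⟨L, hL1, hL2, hL3, ?_, ?_⟩
    · intro p' hp' ε hε
      have : p' = p := hp'.unique hp0
      subst this
      obtain ⟨j, hj1, hj2⟩ := ((hsmall ε hε).and (hL4 ε hε)).exists
      exact ⟨θ j, v j, hv j, hj1, hj2⟩
    · intro k f s₀ hs₀ hconv hf
      refine hasDerivAt_of_convex hs₀ hconv fun ε hε => ?_
      obtain ⟨δ, hδ, hb⟩ := hR k ε hε
      refine ⟨min δ s₀, lt_min hδ hs₀, fun s hs => ?_⟩
      have hf0 : f 0 = p := by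
        have h0 := hf 0 (by simpa using hs₀.le)
        rw [hmu k] at h0
        exact h0.unique hp0
      have hfs := hf s (hs.trans (min_le_right _ _))
      -- the limit of the integrals
      have hint : Tendsto (fun j => ∫ y in (0 : ℝ)..1, (min (β * (θ j).L y) 1) ^ k)
          (hyperfilter ℕ) (𝓝 (∫ y in (0 : ℝ)..1, (min (β * L y) 1) ^ k)) := by
        rw [Metric.tendsto_nhds]
        intro η hη
        have hη' : 0 < η / (2 * (k * β + 1)) := by positivity
        filter_upwards [hL4 _ hη'] with j hj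
        have hLc : ContinuousOn L (Set.Icc 0 1) := by
          have : LipschitzOnWith 1 L (Set.Icc 0 1) := by
            refine LipschitzOnWith.of_dist_le_mul fun y hy z hz => ?_
            simpa [Real.dist_eq] using hL2 y hy z hz
          exact this.continuousOn
        have i1 : IntervalIntegrable (fun y => (min (β * L y) 1) ^ k) volume 0 1 := by
          refine ContinuousOn.intervalIntegrable ?_
          rw [Set.uIcc_of_le zero_le_one]
          exact ((continuousOn_const.mul hLc).inf continuousOn_const).pow k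
        have i2 : IntervalIntegrable (fun y => (min (β * (θ j).L y) 1) ^ k) volume 0 1 := by
          refine Continuous.intervalIntegrable ?_ _ _
          have hL : Continuous (θ j).L := by
            unfold Par3.L prf
            fun_prop
          fun_prop
        rw [Real.dist_eq, ← intervalIntegral.integral_sub i2 i1]
        have h5 : ‖∫ y in (0 : ℝ)..1, ((min (β * (θ j).L y) 1) ^ k - (min (β * L y) 1) ^ k)‖ ≤
            (k * β) * (η / (2 * (k * β + 1))) * |(1 : ℝ) - 0| := by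
          refine intervalIntegral.norm_integral_le_of_norm_le_const fun y hy => ?_
          rw [Set.uIoc_of_le zero_le_one] at hy
          have hy' : y ∈ Set.Icc (0 : ℝ) 1 := ⟨hy.1.le, hy.2⟩
          have a0 : 0 ≤ min (β * (θ j).L y) 1 :=
            le_min (mul_nonneg hβ.le ((θ j).L_mem hy'.1 hy'.2).1) zero_le_one
          have b0 : 0 ≤ min (β * L y) 1 := le_min (mul_nonneg hβ.le (hL1 y hy').1) zero_le_one
          have a1 : min (β * (θ j).L y) 1 ≤ 1 := min_le_right _ _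
          have b1 : min (β * L y) 1 ≤ 1 := min_le_right _ _
          have hab : |min (β * (θ j).L y) 1 - min (β * L y) 1| ≤
              β * (η / (2 * (k * β + 1))) := by
            refine (abs_min_sub_min_le_max _ _ _ _).trans ?_
            rw [sub_self, abs_zero, max_eq_left (abs_nonneg _), ← mul_sub, abs_mul,
              abs_of_pos hβ]
            exact mul_le_mul_of_nonneg_left (hj y hy') hβ.le
          have hpow : |(min (β * (θ j).L y) 1) ^ k - (min (β * L y) 1) ^ k| ≤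
              k * |min (β * (θ j).L y) 1 - min (β * L y) 1| := by
            have h6 := abs_pow_sub_pow_le (min (β * (θ j).L y) 1) (min (β * L y) 1) k
            refine h6.trans ?_
            have h7 : max |min (β * (θ j).L y) 1| |min (β * L y) 1| ^ (k - 1) ≤ 1 := by
              refine pow_le_one₀ (le_max_of_le_left (abs_nonneg _)) (max_le ?_ ?_)
              · rw [abs_of_nonneg a0]; exact a1
              · rw [abs_of_nonneg b0]; exact b1
            have h8 : 0 ≤ |min (β * (θ j).L y) 1 - min (β * L y) 1| * k := by positivity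
            calc |min (β * (θ j).L y) 1 - min (β * L y) 1| * k *
                max |min (β * (θ j).L y) 1| |min (β * L y) 1| ^ (k - 1) ≤
                |min (β * (θ j).L y) 1 - min (β * L y) 1| * k * 1 :=
                  mul_le_mul_of_nonneg_left h7 h8
              _ = k * |min (β * (θ j).L y) 1 - min (β * L y) 1| := by ring
          rw [Real.norm_eq_abs]
          refine hpow.trans ?_
          rw [mul_assoc]
          exact mul_le_mul_of_nonneg_left hab (Nat.cast_nonneg k)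
        rw [Real.norm_eq_abs] at h5
        refine lt_of_le_of_lt h5 ?_
        rw [sub_zero, abs_one, mul_one, mul_div_assoc', div_lt_iff₀ (by positivity)]
        have : 0 ≤ (k : ℝ) * β := by positivity
        nlinarith
      have hlim : Tendsto (fun j => v j + s * ((k + 1) *
          ∫ y in (0 : ℝ)..1, (min (β * (θ j).L y) 1) ^ k) + ε * |s|) (hyperfilter ℕ)
          (𝓝 (p + s * ((k + 1) * ∫ y in (0 : ℝ)..1, (min (β * L y) 1) ^ k) + ε * |s|)) := by
        have hv' : Tendsto v (hyperfilter ℕ) (𝓝 p) := by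
          rw [tendsto_order]
          constructor
          · intro a ha
            refine Eventually.of_forall fun j => lt_of_lt_of_le ha ?_
            exact hp0.1 (mem_PV.2 ⟨θ j, hv j⟩)
          · intro a ha
            have := hsmall (a - p) (by linarith)
            filter_upwards [this] with j hj
            linarith
        exact (hv'.add ((hint.const_mul _).const_mul _)).add tendsto_const_nhds
      rw [hf0]
      refine ge_of_tendsto' hlim fun j => ?_
      refine val_bound (hp k) (hc k) hε.le (fun y h0 h1 => hb s y (hs.trans (min_le_left _ _)) h0 h1)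
        hfs (θ j) ?_
      rw [hmu k]
      exact hv j
  · refine ⟨fun _ => 0, by simp, by simp, by simp, fun p hp' => absurd ⟨p, hp'⟩ hex, ?_⟩
    intro k f s₀ hs₀ _ hf
    exfalso
    refine hex ⟨f 0, ?_⟩
    have h0 := hf 0 (by simpa using hs₀.le)
    rwa [hmu k] at h0

end Vale.Agent.P146.R3
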