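import Vale.Agent.P146.R2.H597.Main

/-!
# P146: the final assembly for the exact chaos function (upper half)
-/

open MeasureTheory ProbabilityTheory Finset Filter Topology

namespace Vale.Agent.P146.R3

open Vale.Agent.P146 Vale.Agent.P146.Ub.Cv Vale.Agent.P146.H605 Vale.Agent.P146.H453
  Vale.Agent.P146.R2

/-- the averaged weight of the column `j` of the family `C_k` -/
noncomputable def aa (β : ℝ) (n : ℕ) (t : ℝ) (k : ℕ) : ℝ :=
  (n : ℝ)⁻¹ * ∑ j : Fin n, nv t (LL n t) (CC β j k) j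

lemma aa_nonneg (β : ℝ) (n : ℕ) {t : ℝ} (ht : 0 ≤ t) (k : ℕ) : 0 ≤ aa β n t k :=
  mul_nonneg (by positivity) (Finset.sum_nonneg fun j _ => nv_nonneg ht _ _ _)

/-- the finite size inequality which keeps the main term -/
def Big2 (K : ℝ) (n L : ℕ) (t q X R1 R4 Er y : ℝ) (a : ℕ → ℝ) : Prop :=
  X ≤ n * t ^ (L + 1) + ∑ k ∈ range (L + 1), ((n : ℝ) / (n - (2 * L + 2))) ^ k *
    ((1 + 1 / y) * (t ^ k * a k) +
      (1 + y) * (er0 n L ^ 2 * ((L + 1) * (n * ((L + 1) * q ^ L) ^ 2 * R1 + Er))) +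
      1 / 3 * (t ^ k * (K * (((k + 1) * q ^ k) ^ 2 * (n * R4)) + Er)) +
      1 / 3 * (er0 n L ^ 2 * ((L + 1) * (K * (n * ((L + 1) * q ^ L) ^ 2 * (n * R4)) + Er))))

/-- **The finite inequality.** -/
theorem glue2 {n : ℕ} {t q X R1 R4 Er K y : ℝ} {L : ℕ} (ht : 0 < t) (ht1 : t ≤ 1) (hq : 1 ≤ q)
    (hy : 1 ≤ y) (hpos : 0 < (n : ℝ) - (2 * L + 2)) (hR1 : 0 ≤ R1)
    (hR4 : 0 ≤ R4) (hK : 0 ≤ K)
    (C : Fin n → ℕ → Fam n)
    (hC : ∀ j k, C j (k + 1) = up (C j k) + dn (C j k) - pv (C j) k)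
    (hP : ∀ j, Par j (C j 0)) (hE : ∀ j, Equi {j} (C j 0))
    (G : Fin n → Fin n → Pair n → Pair n → Pair n → ℕ → Fam n)
    (hG0 : ∀ j v e₁ e₂ e₃, G j v e₁ e₂ e₃ 0 =
      fun i α => C j 0 i (α + un e₁ + un e₂ + un e₃))
    (hG : ∀ j v e₁ e₂ e₃ k, G j v e₁ e₂ e₃ (k + 1) =
      up (G j v e₁ e₂ e₃ k) + dn (G j v e₁ e₂ e₃ k) - pv (G j v e₁ e₂ e₃) k)
    (hT : X ≤ n * t ^ (L + 1) + (n : ℝ)⁻¹ * ∑ j, ns t L (C j 0))
    (h2 : ∀ k ≤ L, (n : ℝ)⁻¹ * ∑ j, ns t L (C j k) ≤ n * ((k + 1) * q ^ k) ^ 2 * R1 + Er)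
    (h3 : ∀ k ≤ L, (n : ℝ)⁻¹ * ∑ j, ∑ v, ∑ e₁ ∈ st v, ∑ e₂ ∈ st v, ∑ e₃ ∈ st v,
      nv t L (G j v e₁ e₂ e₃ k) v ≤ K * (((k + 1) * q ^ k) ^ 2 * (n * R4)) + Er)
    (h4 : ∀ k ≤ L, (n : ℝ)⁻¹ * ∑ j, ∑ v, ∑ e₁ ∈ st v, ∑ e₂ ∈ st v, ∑ e₃ ∈ st v,
      ns t L (G j v e₁ e₂ e₃ k) ≤ K * (n * ((k + 1) * q ^ k) ^ 2 * (n * R4)) + Er) :
    Big2 K n L t q X R1 R4 Er y fun k => (n : ℝ)⁻¹ * ∑ j, nv t L (C j k) j := by
  have hy0 : 0 < y := by linarith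
  have hL0 : (0 : ℝ) ≤ L := Nat.cast_nonneg L
  have hn0 : (0 : ℝ) < n := by linarith
  obtain ⟨D, hD⟩ : ∃ D, D = (n : ℝ) - (2 * L + 2) := ⟨_, rfl⟩
  have hD0 : 0 < D := by rw [hD]; exact hpos
  have hρ : 1 ≤ (n : ℝ) / D := by
    rw [one_le_div hD0, hD]
    linarith
  have hn : (n : ℝ) ≤ (n : ℝ) / D * ((n : ℝ) - (2 * L + 2)) := by
    rw [← hD, div_mul_cancel₀ _ hD0.ne']
  have h := core_avg2 (θ := 1 / y) (θ' := 1) ht ht1 hρ hn (by positivity) one_pos C hC hP hE G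
    hG0 hG
  unfold Big2
  rw [← hD]
  refine hT.trans (add_le_add le_rfl (h.trans (Finset.sum_le_sum fun k hk => ?_)))
  rw [mem_range] at hk
  have hkL : k ≤ L := by omega
  have hq0 : 0 < q := by linarith
  have hmono : ∀ l ≤ L, ((l + 1 : ℝ) * q ^ l) ^ 2 ≤ ((L + 1 : ℝ) * q ^ L) ^ 2 := by
    intro l hl
    refine pow_le_pow_left₀ (by positivity) ?_ 2
    refine mul_le_mul ?_ (pow_le_pow_right₀ hq hl) (by positivity) (by positivity)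
    have : (l : ℝ) ≤ L := by exact_mod_cast hl
    linarith
  have hep : ep n L k ^ 2 ≤ er0 n L ^ 2 :=
    pow_le_pow_left₀ (ep_nonneg n L k) (ep_le_er0 hkL) 2
  have her : 0 ≤ er0 n L ^ 2 := sq_nonneg _
  have htk : 0 ≤ t ^ k := by positivity
  refine mul_le_mul_of_nonneg_left ?_ (by positivity)
  -- second term
  have s2 : ∑ l ∈ range (L + 1), (n : ℝ)⁻¹ * ∑ j, ns t L (C j l) ≤
      (L + 1) * (n * ((L + 1) * q ^ L) ^ 2 * R1 + Er) := by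
    refine (Finset.sum_le_sum (g := fun _ => n * ((L + 1 : ℝ) * q ^ L) ^ 2 * R1 + Er)
      fun l hl => ?_).trans (le_of_eq ?_)
    · rw [mem_range] at hl
      have hl' : l ≤ L := by omega
      refine (h2 l hl').trans ?_
      have b1 := mul_le_mul_of_nonneg_left (hmono l hl') hn0.le
      have b2 := mul_le_mul_of_nonneg_right b1 hR1
      linarith
    · rw [sum_const, card_range, nsmul_eq_mul]
      push_cast
      ring
  have s20 : 0 ≤ ∑ l ∈ range (L + 1), (n : ℝ)⁻¹ * ∑ j, ns t L (C j l) :=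
    Finset.sum_nonneg fun l _ => mul_nonneg (by positivity)
      (Finset.sum_nonneg fun j _ => ns_nonneg ht.le L _)
  have a2 : (1 + (1 / y)⁻¹) * ep n L k ^ 2 * ∑ l ∈ range (L + 1), (n : ℝ)⁻¹ *
      ∑ j, ns t L (C j l) ≤
      (1 + y) * (er0 n L ^ 2 * ((L + 1) * (n * ((L + 1) * q ^ L) ^ 2 * R1 + Er))) := by
    rw [one_div, inv_inv, mul_assoc]
    exact mul_le_mul_of_nonneg_left (mul_le_mul hep s2 s20 her) (by linarith)
  -- third term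
  have a3 : (1 + 1) * t ^ k * ((n : ℝ)⁻¹ * ∑ j, ∑ v, ∑ e₁ ∈ st v, ∑ e₂ ∈ st v, ∑ e₃ ∈ st v,
      nv t L (G j v e₁ e₂ e₃ k) v) ≤
      2 * (t ^ k * (K * (((k + 1) * q ^ k) ^ 2 * (n * R4)) + Er)) := by
    have b := mul_le_mul_of_nonneg_left (h3 k hkL) htk
    rw [mul_assoc]
    linarith
  -- fourth term
  have s4 : ∑ l ∈ range (L + 1), (n : ℝ)⁻¹ * ∑ j, ∑ v, ∑ e₁ ∈ st v, ∑ e₂ ∈ st v,
      ∑ e₃ ∈ st v, ns t L (G j v e₁ e₂ e₃ l) ≤
      (L + 1) * (K * (n * ((L + 1) * q ^ L) ^ 2 * (n * R4)) + Er) := by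
    refine (Finset.sum_le_sum (g := fun _ => K * (n * ((L + 1 : ℝ) * q ^ L) ^ 2 * (n * R4)) + Er)
      fun l hl => ?_).trans (le_of_eq ?_)
    · rw [mem_range] at hl
      have hl' : l ≤ L := by omega
      refine (h4 l hl').trans ?_
      have b1 := mul_le_mul_of_nonneg_left (hmono l hl') hn0.le
      have b2 := mul_le_mul_of_nonneg_right b1 (mul_nonneg hn0.le hR4)
      have b3 := mul_le_mul_of_nonneg_left b2 hK
      linarith
    · rw [sum_const, card_range, nsmul_eq_mul]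
      push_cast
      ring
  have s40 : 0 ≤ ∑ l ∈ range (L + 1), (n : ℝ)⁻¹ * ∑ j, ∑ v, ∑ e₁ ∈ st v, ∑ e₂ ∈ st v,
      ∑ e₃ ∈ st v, ns t L (G j v e₁ e₂ e₃ l) :=
    Finset.sum_nonneg fun l _ => mul_nonneg (by positivity)
      (Finset.sum_nonneg fun j _ => Finset.sum_nonneg fun v _ => Finset.sum_nonneg fun e₁ _ =>
        Finset.sum_nonneg fun e₂ _ => Finset.sum_nonneg fun e₃ _ => ns_nonneg ht.le L _)
  have a4 : (1 + (1 : ℝ)⁻¹) * ep n L k ^ 2 * ∑ l ∈ range (L + 1), (n : ℝ)⁻¹ * ∑ j, ∑ v,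
      ∑ e₁ ∈ st v, ∑ e₂ ∈ st v, ∑ e₃ ∈ st v, ns t L (G j v e₁ e₂ e₃ l) ≤
      2 * (er0 n L ^ 2 * ((L + 1) * (K * (n * ((L + 1) * q ^ L) ^ 2 * (n * R4)) + Er))) := by
    have b := mul_le_mul hep s4 s40 her
    rw [inv_one, mul_assoc]
    linarith
  linarith

lemma big_sum2 (s y t Er K r l D1 D2 : ℝ) (a : ℕ → ℝ) (L : ℕ) (hl : l = (L : ℝ) + 1) :
    ∑ k ∈ range (L + 1),
    (1 + s) * ((1 + 1 / y) * (t ^ k * a k) + D1 +
      1 / 3 * (t ^ k * (K * ((k + 1) ^ 2 * (1 + s) * r) + Er)) + D2) =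
    (1 + s) * (1 + 1 / y) * (∑ k ∈ range (L + 1), t ^ k * a k) +
    (1 + s) * (1 / 3 * (K * (1 + s) * r)) *
        (∑ k ∈ range (L + 1), t ^ k * ((k : ℝ) + 1) ^ 2) +
      (1 + s) * (1 / 3) * Er * (∑ k ∈ range (L + 1), t ^ k) +
      l * ((1 + s) * (D1 + D2)) := by
  have hc : l * ((1 + s) * (D1 + D2)) = ∑ k ∈ range (L + 1), ((1 + s) * (D1 + D2)) := by
    rw [sum_const, card_range, nsmul_eq_mul, hl]
    push_cast
    ring
  rw [hc, mul_sum, mul_sum, mul_sum, ← sum_add_distrib, ← sum_add_distrib, ← sum_add_distrib]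
  exact sum_congr rfl fun k _ => by ring

lemma big_alg2 {K y s t q X R1 R4 Er : ℝ} {a : ℕ → ℝ} {n L : ℕ} (hK : 0 ≤ K)
    (hn : (n : ℝ) = y ^ 1000)
    (hy : 4 ≤ y) (hs0 : 0 ≤ s) (hs1 : s ≤ 1) (ht0 : 0 ≤ t) (ht1 : 1 / y ≤ 1 - t)
    (hq : 1 ≤ q) (hL : (L : ℝ) + 1 ≤ y ^ 2)
    (hqL : (q ^ L) ^ 2 ≤ 1 + s)
    (hρ : ∀ k ≤ L, ((n : ℝ) / (n - (2 * L + 2))) ^ k ≤ 1 + s) (ha : ∀ k, 0 ≤ a k)
    (hT : (n : ℝ) * t ^ (L + 1) ≤ 1 / y) (hEr0 : 0 ≤ Er) (hEr : Er ≤ 1 / y ^ 10)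
    (hR1 : R1 ≤ 2 / y ^ 24) (hR10 : 0 ≤ R1) (hR40 : 0 ≤ R4) (hX : 0 ≤ X)
    (hR4 : n * R4 ≤ X / y ^ 49 + 1 / y ^ 30)
    (h : Big2 K n L t q X R1 R4 Er y a) :
    X ≤ (1 + s) * (1 + 1 / y) * (∑ k ∈ range (L + 1), t ^ k * a k) + (4000 + 1000 * K) / y +
      1000 * K / y * X := by
  have hy0 : 0 < y := by linarith
  have hy1 : 1 ≤ y := by linarith
  have ht1' : 0 < 1 - t := lt_of_lt_of_le (by positivity) ht1
  have ht1'' : t < 1 := by linarith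
  obtain ⟨M, hM⟩ : ∃ M, M = (1 + t) / (1 - t) ^ 3 := ⟨_, rfl⟩
  have hM1 : 0 ≤ M := by rw [hM]; positivity
  have hMy : M ≤ 2 * y ^ 3 := by
    rw [hM, div_le_iff₀ (by positivity)]
    have h1 : (1 / y) ^ 3 ≤ (1 - t) ^ 3 := pow_le_pow_left₀ (by positivity) ht1 3
    have h2 : y ^ 3 * (1 / y) ^ 3 = 1 := by field_simp
    have h3 : y ^ 3 * (1 / y) ^ 3 ≤ y ^ 3 * (1 - t) ^ 3 :=
      mul_le_mul_of_nonneg_left h1 (by positivity)
    linarith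
  obtain ⟨l, hl⟩ : ∃ l : ℝ, l = (L : ℝ) + 1 := ⟨_, rfl⟩
  have hl1 : 1 ≤ l := by rw [hl]; linarith [(Nat.cast_nonneg L : (0 : ℝ) ≤ L)]
  rw [← hl] at hL
  have hn0' : (0 : ℝ) < n := by rw [hn]; positivity
  have hn0 : 0 < n := by exact_mod_cast hn0'
  have hLn : L + 1 ≤ n := by
    have h1 : (L : ℝ) + 1 ≤ n := by
      rw [hn, ← hl]
      refine hL.trans ?_
      exact pow_le_pow_right₀ hy1 (by norm_num)
    exact_mod_cast h1
  have he := er0_sq_le hn0 hLn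
  rw [← hl] at he
  obtain ⟨e2, he2⟩ : ∃ e2, e2 = er0 n L ^ 2 := ⟨_, rfl⟩
  have he20 : 0 ≤ e2 := by rw [he2]; positivity
  rw [← he2] at he
  obtain ⟨r, hr⟩ : ∃ r : ℝ, r = n * R4 := ⟨_, rfl⟩
  have hr0 : 0 ≤ r := by rw [hr]; positivity
  have hqk : ∀ k ≤ L, ((k + 1 : ℝ) * q ^ k) ^ 2 ≤ (k + 1) ^ 2 * (1 + s) := by
    intro k hk
    rw [mul_pow]
    refine mul_le_mul_of_nonneg_left ?_ (by positivity)
    refine le_trans ?_ hqL
    exact pow_le_pow_left₀ (by positivity) (pow_le_pow_right₀ hq hk) 2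
  have hS := sum_sq_geom_le ht0 ht1'' L
  rw [← hM] at hS
  have htk : ∑ k ∈ range (L + 1), t ^ k ≤ l := by
    calc ∑ k ∈ range (L + 1), t ^ k ≤ ∑ k ∈ range (L + 1), (1 : ℝ) :=
          sum_le_sum fun k _ => pow_le_one₀ ht0 ht1''.le
      _ = l := by rw [sum_const, card_range, hl]; simp
  have key : ∀ k ∈ range (L + 1), ((n : ℝ) / (n - (2 * L + 2))) ^ k *
    ((1 + 1 / y) * (t ^ k * a k) +
      (1 + y) * (er0 n L ^ 2 * ((L + 1) * (n * ((L + 1) * q ^ L) ^ 2 * R1 + Er))) +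
      1 / 3 * (t ^ k * (K * (((k + 1) * q ^ k) ^ 2 * (n * R4)) + Er)) +
      1 / 3 * (er0 n L ^ 2 * ((L + 1) * (K * (n * ((L + 1) * q ^ L) ^ 2 * (n * R4)) + Er)))) ≤
    (1 + s) * ((1 + 1 / y) * (t ^ k * a k) +
      (1 + y) * (e2 * (l * (n * (l ^ 2 * (1 + s)) * R1 + Er))) +
      1 / 3 * (t ^ k * (K * ((k + 1) ^ 2 * (1 + s) * r) + Er)) +
      1 / 3 * (e2 * (l * (K * (n * (l ^ 2 * (1 + s)) * r) + Er)))) := by
    intro k hk
    have hk' : k ≤ L := Nat.lt_succ_iff.1 (mem_range.1 hk)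
    have q1 := hqk k hk'
    have q2 := hqk L le_rfl
    rw [← hr, ← he2]
    rw [← hl] at q2 ⊢
    have hrk := hρ k hk'
    have hak := ha k
    gcongr
  have h' := h.trans (add_le_add_right (sum_le_sum key) _)
  rw [big_sum2 s y t Er K r l _ _ a L hl] at h'
  have b1 : (1 + s) * (1 / 3 * (K * (1 + s) * r)) *
      (∑ k ∈ range (L + 1), t ^ k * ((k : ℝ) + 1) ^ 2) ≤ 4 / 3 * (K * r) * (2 * y ^ 3) := by
    have c1 := mul_le_mul_of_nonneg_left hS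
      (by positivity : 0 ≤ (1 + s) * (1 / 3 * (K * (1 + s) * r)))
    have c2 : (1 + s) * (1 / 3 * (K * (1 + s) * r)) * M = 1 / 3 * (1 + s) ^ 2 * (K * r) * M := by
      ring
    have c3 : 1 / 3 * (1 + s) ^ 2 * (K * r) * M ≤ 4 / 3 * (K * r) * (2 * y ^ 3) := by
      have h4 : (1 + s) ^ 2 ≤ 4 := by nlinarith
      have h5 : 0 ≤ K * r := by positivity
      have d1 : 1 / 3 * (1 + s) ^ 2 * (K * r) ≤ 4 / 3 * (K * r) :=
        mul_le_mul_of_nonneg_right (by linarith) h5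
      exact mul_le_mul d1 hMy hM1 (by positivity)
    linarith
  have b2 : (1 + s) * (1 / 3) * Er * (∑ k ∈ range (L + 1), t ^ k) ≤ 6 / y := by
    refine le_trans ?_ (big_small (T := ∑ k ∈ range (L + 1), t ^ k) hy1 hs0 hs1 hEr0 hEr
      (sum_nonneg fun _ _ => by positivity) (htk.trans hL))
    have hT0 : 0 ≤ ∑ k ∈ range (L + 1), t ^ k := sum_nonneg fun _ _ => by positivity
    refine mul_le_mul_of_nonneg_right (mul_le_mul_of_nonneg_right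
      (mul_le_mul_of_nonneg_left ?_ (by positivity)) hEr0) hT0
    have : 0 ≤ 1 / y := by positivity
    linarith
  have b3 := big_err (n := (n : ℝ)) hK hn hy hs0 hs1 hl1 hL hr0 hEr0 hEr hR1 hR10 he20 he
  rw [← hr] at hR4
  have b5 := big_r hK hy1 hX hr0 hR4
  have b6 : (4000 + 1000 * K) / y = 4000 / y + 1000 * K / y := by ring
  have b7 : 1 / y + 6 / y + 1700 / y ≤ 4000 / y := by
    rw [← add_div, ← add_div]
    exact div_le_div_of_nonneg_right (by norm_num) hy0.le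
  rw [b6]
  linarith

/-- The inequality with the main term, for large `n` -/
theorem fin2 {β : ℝ} (hβ : 1 < β) : ∀ᶠ n : ℕ in atTop, ∀ t : ℝ, 0 < t →
    1 / zz0 n ^ 2 ≤ 1 - t →
    (∀ k ≤ LL n t, aa β n t k ≤ 3 * ((k : ℝ) + 1) ^ 2) ∧
    n * crossOverlap n β t ≤ (1 + 1 / zz0 n) * (∑ k ∈ range (LL n t + 1), t ^ k * aa β n t k) +
      (4000 + 1000 * (2304 * β ^ 6)) / zz0 n ^ 8 +
      1000 * (2304 * β ^ 6) / zz0 n ^ 8 * (n * crossOverlap n β t) := by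
  filter_upwards [params, H432.err_num' (2 * (1 + 2304 * β ^ 6)) 2, H501.m5_num hβ,
    eventually_ge_atTop 1] with n hp herr h5 hn t ht hτ
  obtain ⟨hz, hq1, hL, hqL, hρ, hpos, hT⟩ := hp t ht.le hτ
  obtain ⟨hR1, hR4⟩ := h5 t ht.le hτ
  have hz0 : 0 < zz0 n := by linarith
  have hz1 : 1 ≤ zz0 n := by linarith
  have ht1 : t ≤ 1 := by
    have : 0 < 1 / zz0 n ^ 2 := by positivity
    linarith
  have hEr : ∀ k ≤ LL n t, (1 + 2304 * β ^ 6) * (n : ℝ) ^ 2 * (2 * H432.errQ n (qq n t) k) ≤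
      1 / zz0 n ^ 80 := by
    intro k hk
    have h := herr t ht.le hτ k hk
    refine le_trans (le_of_eq ?_) h
    ring
  have hq0 : 0 < qq n t := by linarith
  have hs1 : 1 / zz0 n ^ 4 ≤ 1 := by
    rw [div_le_one (by positivity)]
    exact one_le_pow₀ hz1
  refine ⟨fun k hk => ?_, ?_⟩
  · have h := H757.h1form β hn hq1 ht.le ht1 (LL n t) k (hEr k hk)
    have e1 : ((k + 1 : ℝ) * qq n t ^ k) ^ 2 ≤ 2 * (k + 1) ^ 2 := by
      rw [mul_pow]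
      have e2 : (qq n t ^ k) ^ 2 ≤ 2 := by
        calc (qq n t ^ k) ^ 2 ≤ (qq n t ^ LL n t) ^ 2 :=
              pow_le_pow_left₀ (by positivity) (pow_le_pow_right₀ hq1 hk) 2
          _ ≤ 2 := by linarith
      have := mul_le_mul_of_nonneg_left e2 (by positivity : (0 : ℝ) ≤ ((k : ℝ) + 1) ^ 2)
      linarith
    have e3 : 1 / zz0 n ^ 80 ≤ 1 := by
      rw [div_le_one (by positivity)]
      exact one_le_pow₀ hz1
    have e4 : (1 : ℝ) ≤ ((k : ℝ) + 1) ^ 2 := one_le_pow₀ (by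
      have : (0 : ℝ) ≤ k := Nat.cast_nonneg k
      linarith)
    unfold aa
    linarith
  · obtain ⟨z, hzz⟩ : ∃ z, z = zz0 n := ⟨_, rfl⟩
    have hzn : z ^ 8000 = n := by rw [hzz]; exact zz0_pow n
    have hg := glue2 (K := 2304 * β ^ 6) (Er := 1 / zz0 n ^ 80) (y := zz0 n ^ 8) ht ht1 hq1
      (one_le_pow₀ hz1) hpos
      (crossMom_nonneg' n β 1 t) (crossMom_nonneg' n β 4 t) (by positivity)
      (CC β) (CC_rec β) (par_CC β) (equi_CC β) (GG β) (GG_zero β) (GG_rec β)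
      (crossOverlap_low β hn ht.le ht1 (LL n t))
      (fun k hk => H757.h2form β hn hq1 ht.le ht1 (LL n t) k (hEr k hk))
      (fun k hk => H757.h3form β hn hq1 ht.le ht1 (LL n t) k (hEr k hk))
      (fun k hk => H757.h4form β hn hq1 ht.le ht1 (LL n t) k (hEr k hk))
    rw [← hzz] at hz hqL hρ hT hR1 hR4 hL hτ hz0 hz1 hs1 hg ⊢
    obtain ⟨y, hy⟩ : ∃ y, y = z ^ 8 := ⟨_, rfl⟩
    have p1000 : (n : ℝ) = y ^ 1000 := by rw [hy, ← pow_mul, ← hzn]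
    have p10 : z ^ 80 = y ^ 10 := by rw [hy, ← pow_mul]
    have p24 : z ^ 192 = y ^ 24 := by rw [hy, ← pow_mul]
    have p49 : z ^ 392 = y ^ 49 := by rw [hy, ← pow_mul]
    have p30 : z ^ 240 = y ^ 30 := by rw [hy, ← pow_mul]
    rw [p24] at hR1
    rw [p49, p30] at hR4
    rw [p10] at hg
    have hy4 : 4 ≤ y := by
      have h1 : (100 : ℝ) ^ 8 ≤ z ^ 8 := pow_le_pow_left₀ (by norm_num) hz 8
      rw [hy]
      refine le_trans ?_ h1
      norm_num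
    have hy0 : 0 < y := by linarith
    have e1 : 1 / y ≤ 1 - t := by
      refine le_trans ?_ hτ
      rw [hy]
      exact one_div_le_one_div_of_le (by positivity) (pow_le_pow_right₀ hz1 (by norm_num))
    have hLy : (LL n t : ℝ) + 1 ≤ y ^ 2 := by
      refine hL.trans ?_
      rw [hy, ← pow_mul]
      exact pow_le_pow_right₀ hz1 (by norm_num)
    rw [← hy] at hT hg ⊢
    have hX0 : 0 ≤ n * crossOverlap n β t := by
      rw [← H501.crossMom_two]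
      exact mul_nonneg (Nat.cast_nonneg n) (crossMom_nonneg' n β 2 t)
    have h := big_alg2 (K := 2304 * β ^ 6) (y := y) (s := 1 / z ^ 4) (by positivity) p1000 hy4
      (by positivity) hs1 ht.le e1 hq1 hLy hqL hρ
      (fun k => aa_nonneg β n ht.le k) hT (by positivity) le_rfl hR1
      (crossMom_nonneg' n β 1 t) (crossMom_nonneg' n β 4 t) hX0 hR4 hg
    refine h.trans ?_
    have hS0 : 0 ≤ ∑ k ∈ range (LL n t + 1), t ^ k * aa β n t k :=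
      Finset.sum_nonneg fun k _ => mul_nonneg (by positivity) (aa_nonneg β n ht.le k)
    have e2 : (1 + 1 / z ^ 4) * (1 + 1 / y) ≤ 1 + 1 / z := by
      obtain ⟨u, hu⟩ : ∃ u, u = 1 / z := ⟨_, rfl⟩
      have hu0 : 0 < u := by rw [hu]; positivity
      have hu1 : u ≤ 1 / 100 := by
        rw [hu]
        exact one_div_le_one_div_of_le (by norm_num) hz
      have e4 : 1 / z ^ 4 = u ^ 4 := by rw [hu, one_div_pow]
      have e8 : 1 / y = u ^ 8 := by rw [hy, hu, one_div_pow]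
      rw [e4, e8, ← hu]
      have g2 : u ^ 8 ≤ u ^ 4 := pow_le_pow_of_le_one hu0.le (by linarith) (by norm_num)
      have g1 : u ^ 4 ≤ u ^ 2 := pow_le_pow_of_le_one hu0.le (by linarith) (by norm_num)
      have g3 : u ^ 2 ≤ u * (1 / 100) := by
        rw [sq]
        exact mul_le_mul_of_nonneg_left hu1 hu0.le
      have g5 : u ^ 4 ≤ 1 := pow_le_one₀ hu0.le (by linarith)
      have g4 : u ^ 4 * u ^ 8 ≤ 1 * u ^ 8 := mul_le_mul_of_nonneg_right g5 (by positivity)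
      have : (1 + u ^ 4) * (1 + u ^ 8) = 1 + u ^ 4 + u ^ 8 + u ^ 4 * u ^ 8 := by ring
      linarith
    have e3 := mul_le_mul_of_nonneg_right e2 hS0
    linarith

end Vale.Agent.P146.R3
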