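import Vale.Agent.P146.R3.H597.Exact
import Vale.Agent.P146.R3.H729.Fin
import Vale.Agent.P146.R3.H536.NearB
import Vale.Agent.P146.R3.H316.Rel
import Vale.Agent.P146.R3.H316.Pi8

/-!
# P146: growth of the coefficients and the universal relation
-/

open MeasureTheory ProbabilityTheory Filter Topology Set

namespace Vale.Agent.P146.R3

open Vale.Agent.P146 Vale.Agent.P146.H605 Vale.Agent.P146.R3.H952

/-- The contact of the profile at `0`, the growth of `m_k` and the behaviour of `K_∞` at `1`. -/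
theorem growth_plug {β A : ℝ} (hβ : 1 < β) (hA0 : 0 < A)
    (hA : Tendsto (fun x => (Sh.Vx β x - Sh.P0 β) / x ^ 5) (𝓝[>] 0) (𝓝 A))
    {x : ℝ → ℝ} (hx : MinProf β x) :
    (∃ C y₀ : ℝ, 0 < y₀ ∧ ∀ y, 0 ≤ y → y ≤ y₀ →
      |1 - ll β x y - β ^ 2 * (9 / (80 * A)) ^ (1 / 3 : ℝ) / 4 * y ^ 2| ≤ C * y ^ (5 / 2 : ℝ)) ∧
    Tendsto (fun k : ℕ => mk β x k ^ 2 / ((k : ℝ) + 1)) atTop
      (𝓝 (Real.pi / β ^ 2 * (80 * A / 9) ^ (1 / 3 : ℝ))) ∧
    Tendsto (fun t : ℝ => (1 - t) * Kinf β x t) (𝓝[<] 1)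
      (𝓝 (Real.pi / 2 * (80 * A / 9) ^ (1 / 3 : ℝ))) := by
  have hβ0 : 0 < β := by linarith
  have hk : H729.kap2 β A = β ^ 2 * (9 / (80 * A)) ^ (1 / 3 : ℝ) := by
    unfold H729.kap2
    have e1 : 9 / 80 * β ^ 6 / A = (β ^ 2) ^ 3 * (9 / (80 * A)) := by
      field_simp
    rw [e1, Real.mul_rpow (by positivity) (by positivity), ← Real.rpow_natCast (β ^ 2) 3,
      ← Real.rpow_mul (by positivity)]
    norm_num
  have hk2 : Real.pi / H729.kap2 β A = Real.pi / β ^ 2 * (80 * A / 9) ^ (1 / 3 : ℝ) := by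
    rw [hk]
    have e1 : (80 * A / 9) ^ (1 / 3 : ℝ) = ((9 / (80 * A)) ^ (1 / 3 : ℝ))⁻¹ := by
      rw [← Real.inv_rpow (by positivity), inv_div]
    rw [e1]
    field_simp
  obtain ⟨h1, h2, h3⟩ := H729.growth hβ hA0
    (fun k m q hm hq hq1 => H536.specPart_le hβ0 hm hq hq1) (H793.sel hβ hA) (hypR hβ0)
    (hypI β) (hypF β) (H501.glb_sk hβ.le) hx
  refine ⟨?_, ?_, ?_⟩
  · rw [hk] at h1
    exact h1
  · rw [hk2] at h2
    exact h2
  · refine h3.congr fun t => ?_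
    unfold Kinf mk
    congr 2
    refine tsum_congr fun k => ?_
    push_cast
    have e1 : (k : ℝ) + 1 + 1 = k + 2 := by ring
    rw [e1]
    ring

end Vale.Agent.P146.R3
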