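import Vale.Agent.P146.R3.H597.Fin

/-!
# P146: the limit of the cross overlap and of the covariance
-/

open MeasureTheory ProbabilityTheory Finset Filter Topology

namespace Vale.Agent.P146.R3

open Vale.Agent.P146 Vale.Agent.P146.Ub.Cv Vale.Agent.P146.H605 Vale.Agent.P146.H453
  Vale.Agent.P146.R2

lemma tendsto_LL {t : ℝ} (ht1 : t < 1) : Tendsto (fun n : ℕ => LL n t) atTop atTop := by
  have h1 : Tendsto (fun n : ℕ => 3 * Real.log n / (1 - t)) atTop atTop := by
    refine Tendsto.atTop_div_const (by linarith) ?_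
    exact Tendsto.const_mul_atTop (by norm_num) (Real.tendsto_log_atTop.comp
      tendsto_natCast_atTop_atTop)
  refine tendsto_atTop.2 fun b => ?_
  filter_upwards [h1.eventually_ge_atTop (b : ℝ)] with n hn
  have h2 : (b : ℝ) ≤ LL n t := hn.trans (Nat.le_ceil _)
  exact_mod_cast h2

lemma summable_bd {t : ℝ} (ht : 0 ≤ t) (ht1 : t < 1) :
    Summable fun k : ℕ => t ^ k * (3 * ((k : ℝ) + 1) ^ 2) := by
  have hn : ‖t‖ < 1 := by rw [Real.norm_eq_abs, abs_of_nonneg ht]; exact ht1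
  have h2 := summable_pow_mul_geometric_of_norm_lt_one 2 hn
  have h1 := summable_pow_mul_geometric_of_norm_lt_one 1 hn
  have h0 := summable_pow_mul_geometric_of_norm_lt_one 0 hn
  refine (((h2.mul_left 3).add (h1.mul_left 6)).add (h0.mul_left 3)).congr fun k => ?_
  simp only [pow_one, pow_zero, one_mul]
  ring

lemma summable_M {t : ℝ} (ht : 0 ≤ t) (ht1 : t < 1) {M : ℕ → ℝ} (hM0 : ∀ k, 0 ≤ M k)
    (hM : ∀ k : ℕ, M k ≤ ((k : ℝ) + 1) ^ 2) : Summable fun k : ℕ => t ^ k * M k := by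
  refine Summable.of_nonneg_of_le (fun k => mul_nonneg (by positivity) (hM0 k)) (fun k => ?_)
    (summable_bd ht ht1)
  refine mul_le_mul_of_nonneg_left ((hM k).trans ?_) (by positivity)
  nlinarith [sq_nonneg ((k : ℝ) + 1)]

lemma ev_tau {t : ℝ} (ht1 : t < 1) : ∀ᶠ n : ℕ in atTop, 1 / zz0 n ^ 2 ≤ 1 - t := by
  have h : Tendsto (fun n : ℕ => 1 / zz0 n ^ 2) atTop (𝓝 0) :=
    (tendsto_const_nhds).div_atTop ((tendsto_pow_atTop (by norm_num)).comp tendsto_zz0)
  exact h.eventually_le_const (by linarith)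

/-- **The upper half.** -/
theorem upper_lim {β : ℝ} (hβ : 1 < β) {t : ℝ} (ht : 0 < t) (ht1 : t < 1) {M : ℕ → ℝ}
    (hM0 : ∀ k, 0 ≤ M k) (hM : ∀ k : ℕ, M k ≤ ((k : ℝ) + 1) ^ 2)
    (H1 : ∀ k : ℕ, ∀ ε : ℝ, 0 < ε → ∀ᶠ n : ℕ in atTop, aa β n t k ≤ M k + ε)
    {ε : ℝ} (hε : 0 < ε) :
    ∀ᶠ n : ℕ in atTop, n * crossOverlap n β t ≤ ∑' k : ℕ, t ^ k * M k + ε := by
  obtain ⟨F, hF⟩ : ∃ F : ℕ → ℕ → ℝ, F = fun n k =>
      if k ≤ LL n t then t ^ k * min (max (aa β n t k) (M k)) (3 * ((k : ℝ) + 1) ^ 2) else 0 :=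
    ⟨_, rfl⟩
  have hMb : ∀ k : ℕ, M k ≤ 3 * ((k : ℝ) + 1) ^ 2 := fun k =>
    (hM k).trans (by nlinarith [sq_nonneg ((k : ℝ) + 1)])
  have hFb : ∀ n k, ‖F n k‖ ≤ t ^ k * (3 * ((k : ℝ) + 1) ^ 2) := by
    intro n k
    rw [hF]
    simp only
    split_ifs
    · have h1 : 0 ≤ max (aa β n t k) (M k) := le_max_of_le_left (aa_nonneg β n ht.le k)
      have h2 : 0 ≤ min (max (aa β n t k) (M k)) (3 * ((k : ℝ) + 1) ^ 2) :=
        le_min h1 (by positivity)
      rw [Real.norm_eq_abs, abs_of_nonneg (by positivity)]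
      exact mul_le_mul_of_nonneg_left (min_le_right _ _) (by positivity)
    · rw [norm_zero]
      positivity
  have hlim : ∀ k, Tendsto (fun n => F n k) atTop (𝓝 (t ^ k * M k)) := by
    intro k
    have h1 : Tendsto (fun n : ℕ => max (aa β n t k) (M k)) atTop (𝓝 (M k)) := by
      rw [Metric.tendsto_atTop]
      intro e he
      obtain ⟨N, hN⟩ := eventually_atTop.1 (H1 k (e / 2) (by linarith))
      refine ⟨N, fun n hn => ?_⟩
      have h2 := hN n hn
      have h3 : M k ≤ max (aa β n t k) (M k) := le_max_right _ _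
      have h4 : max (aa β n t k) (M k) ≤ M k + e / 2 := max_le h2 (by linarith)
      rw [Real.dist_eq, abs_of_nonneg (by linarith)]
      linarith
    have h2 : Tendsto (fun n : ℕ => t ^ k * min (max (aa β n t k) (M k))
        (3 * ((k : ℝ) + 1) ^ 2)) atTop (𝓝 (t ^ k * M k)) := by
      have h3 := (h1.min (tendsto_const_nhds (x := 3 * ((k : ℝ) + 1) ^ 2))).const_mul (t ^ k)
      rwa [min_eq_left (hMb k)] at h3
    refine h2.congr' ?_
    filter_upwards [(tendsto_LL ht1).eventually_ge_atTop k] with n hn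
    rw [hF]
    simp only
    rw [if_pos hn]
  have hT : Tendsto (fun n => ∑' k, F n k) atTop (𝓝 (∑' k, t ^ k * M k)) :=
    tendsto_tsum_of_dominated_convergence (summable_bd ht.le ht1) hlim
      (Eventually.of_forall fun n k => hFb n k)
  have hz : Tendsto (fun n : ℕ => 1 / zz0 n) atTop (𝓝 0) :=
    tendsto_const_nhds.div_atTop tendsto_zz0
  have hz8 : Tendsto (fun n : ℕ => zz0 n ^ 8) atTop atTop :=
    (tendsto_pow_atTop (by norm_num)).comp tendsto_zz0
  obtain ⟨X0, hX0⟩ : ∃ X0 : ℝ, X0 = 2 * ((1 + t) / (1 - t) ^ 3) := ⟨_, rfl⟩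
  have hR : Tendsto (fun n : ℕ => (1 + 1 / zz0 n) * (∑' k, F n k) +
      (4000 + 1000 * (2304 * β ^ 6)) / zz0 n ^ 8 +
      (1000 * (2304 * β ^ 6)) / zz0 n ^ 8 * X0) atTop (𝓝 (∑' k, t ^ k * M k)) := by
    have h1 := ((hz.const_add 1).mul hT).add
      ((tendsto_const_nhds (x := (4000 + 1000 * (2304 * β ^ 6)))).div_atTop hz8)
    have h2 := h1.add (((tendsto_const_nhds (x := (1000 * (2304 * β ^ 6)))).div_atTop
      hz8).mul_const X0)
    simpa using h2
  filter_upwards [fin2 hβ, R2.main hβ, ev_tau ht1, hR.eventually_le_const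
    (by linarith : ∑' k, t ^ k * M k < ∑' k, t ^ k * M k + ε),
    tendsto_zz0.eventually_ge_atTop 1] with n h1 h2 h3 h4 hz1
  obtain ⟨ha, hb⟩ := h1 t ht h3
  obtain ⟨hc, -⟩ := h2 t ht.le h3
  have hz0 : 0 < zz0 n := by linarith
  have hX : n * crossOverlap n β t ≤ X0 := by
    refine hc.trans ?_
    rw [hX0]
    refine mul_le_mul_of_nonneg_right ?_ (div_nonneg (by linarith)
      (pow_nonneg (by linarith) 3))
    have : 1 / zz0 n ≤ 1 := by rw [div_le_one hz0]; exact hz1
    linarith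
  refine le_trans (hb.trans ?_) h4
  have hS : ∑ k ∈ range (LL n t + 1), t ^ k * aa β n t k ≤ ∑' k, F n k := by
    have hs : Summable (F n) := Summable.of_norm_bounded (summable_bd ht.le ht1) (hFb n)
    refine le_trans (Finset.sum_le_sum fun k hk => ?_) (hs.sum_le_tsum (range (LL n t + 1))
      fun k _ => ?_)
    · have hk' : k ≤ LL n t := Nat.lt_succ_iff.1 (mem_range.1 hk)
      rw [hF]
      simp only
      rw [if_pos hk']
      exact mul_le_mul_of_nonneg_left (le_min (le_max_left _ _) (ha k hk')) (by positivity)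
    · rw [hF]
      simp only
      split_ifs
      · have h1 : 0 ≤ max (aa β n t k) (M k) := le_max_of_le_left (aa_nonneg β n ht.le k)
        exact mul_nonneg (by positivity) (le_min h1 (by positivity))
      · exact le_refl _
  refine add_le_add (add_le_add (mul_le_mul_of_nonneg_left hS (by positivity)) le_rfl) ?_
  exact mul_le_mul_of_nonneg_left hX (by positivity)

/-- **The limit of the cross overlap.** -/
theorem lim_overlap {β : ℝ} (hβ : 1 < β) {t : ℝ} (ht : 0 < t) (ht1 : t < 1) {M : ℕ → ℝ}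
    (hM0 : ∀ k, 0 ≤ M k) (hM : ∀ k : ℕ, M k ≤ ((k : ℝ) + 1) ^ 2)
    (H1 : ∀ k : ℕ, ∀ ε : ℝ, 0 < ε → ∀ᶠ n : ℕ in atTop, aa β n t k ≤ M k + ε)
    (H2 : ∀ K : ℕ, ∀ ε : ℝ, 0 < ε → ∀ᶠ n : ℕ in atTop,
      ∑ k ∈ range K, t ^ k * M k - ε ≤ n * crossOverlap n β t) :
    Tendsto (fun n : ℕ => n * crossOverlap n β t) atTop (𝓝 (∑' k : ℕ, t ^ k * M k)) := by
  have hs := summable_M ht.le ht1 hM0 hM
  rw [Metric.tendsto_atTop]
  intro ε hε
  have h1 := upper_lim hβ ht ht1 hM0 hM H1 (half_pos hε)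
  obtain ⟨K, hK⟩ := eventually_atTop.1 ((hs.hasSum.tendsto_sum_nat).eventually_const_le
    (by linarith : ∑' k : ℕ, t ^ k * M k - ε / 4 < ∑' k : ℕ, t ^ k * M k))
  have h2 := H2 K (ε / 4) (by linarith)
  obtain ⟨N, hN⟩ := eventually_atTop.1 (h1.and h2)
  refine ⟨N, fun n hn => ?_⟩
  obtain ⟨a, b⟩ := hN n hn
  have c := hK K le_rfl
  rw [Real.dist_eq, abs_lt]
  constructor <;> linarith

/-- **The limit of the covariance.** -/
theorem lim_cov {β : ℝ} (hβ : 1 < β) {t : ℝ} (ht : 0 < t) (ht1 : t < 1) {M : ℕ → ℝ}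
    (hM0 : ∀ k, 0 ≤ M k) (hM : ∀ k : ℕ, M k ≤ ((k : ℝ) + 1) ^ 2)
    (H : ∀ s : ℝ, 0 < s → s < 1 → Tendsto (fun n : ℕ => n * crossOverlap n β s) atTop
      (𝓝 (∑' k : ℕ, s ^ k * M k))) :
    Tendsto (fun n : ℕ => crossCov n β t) atTop
      (𝓝 (β ^ 2 / 2 * (∑' k : ℕ, t ^ (k + 1) / (k + 1) * M k - t))) := by
  have hβ0 : β ≠ 0 := by positivity
  have hs := summable_M ht.le ht1 hM0 hM
  -- the limit as an integral
  have hI : ∫ s in (0 : ℝ)..t, β ^ 2 / 2 * (∑' k : ℕ, s ^ k * M k - 1) =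
      β ^ 2 / 2 * (∑' k : ℕ, t ^ (k + 1) / (k + 1) * M k - t) := by
    have h1 : HasSum (fun k : ℕ => ∫ s in (0 : ℝ)..t, s ^ k * M k)
        (∫ s in (0 : ℝ)..t, ∑' k : ℕ, s ^ k * M k) := by
      refine intervalIntegral.hasSum_integral_of_dominated_convergence
        (fun k _ => t ^ k * M k) (fun k => ?_) (fun k => ?_) ?_ ?_ ?_
      · exact ((continuous_pow k).mul_const _).aestronglyMeasurable
      · refine Eventually.of_forall fun s hs => ?_
        rw [Set.uIoc_of_le ht.le] at hs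
        rw [Real.norm_eq_abs, abs_of_nonneg (mul_nonneg (pow_nonneg hs.1.le _) (hM0 k))]
        exact mul_le_mul_of_nonneg_right (pow_le_pow_left₀ hs.1.le hs.2 k) (hM0 k)
      · exact Eventually.of_forall fun _ _ => hs
      · exact intervalIntegrable_const
      · refine Eventually.of_forall fun s hs' => ?_
        rw [Set.uIoc_of_le ht.le] at hs'
        exact (summable_M hs'.1.le (hs'.2.trans_lt ht1) hM0 hM).hasSum
    have h2 : ∀ k : ℕ, ∫ s in (0 : ℝ)..t, s ^ k * M k = t ^ (k + 1) / (k + 1) * M k := by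
      intro k
      rw [intervalIntegral.integral_mul_const, integral_pow]
      simp
    have h3 : IntervalIntegrable (fun s : ℝ => ∑' k : ℕ, s ^ k * M k) volume 0 t := by
      refine IntervalIntegrable.mono_fun (g := fun s : ℝ => ∑' k : ℕ, s ^ k * M k)
        (f := fun _ => ∑' k : ℕ, t ^ k * M k) intervalIntegrable_const ?_ ?_
      · have hm : Measurable fun s : ℝ => (∑' k : ℕ, ENNReal.ofReal (s ^ k * M k)).toReal := by
          refine Measurable.ennreal_toReal (Measurable.ennreal_tsum fun k => ?_)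
          exact ENNReal.measurable_ofReal.comp ((continuous_pow k).mul_const _).measurable
        refine hm.aestronglyMeasurable.congr ?_
        refine (ae_restrict_iff' measurableSet_uIoc).2 (Eventually.of_forall fun s hs' => ?_)
        rw [Set.uIoc_of_le ht.le] at hs'
        have h5 := summable_M hs'.1.le (hs'.2.trans_lt ht1) hM0 hM
        beta_reduce
        rw [← ENNReal.ofReal_tsum_of_nonneg (fun k => mul_nonneg (pow_nonneg hs'.1.le _) (hM0 k))
          h5, ENNReal.toReal_ofReal]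
        exact tsum_nonneg fun k => mul_nonneg (pow_nonneg hs'.1.le _) (hM0 k)
      · refine (ae_restrict_iff' measurableSet_uIoc).2 (Eventually.of_forall fun s hs' => ?_)
        rw [Set.uIoc_of_le ht.le] at hs'
        have h5 := summable_M hs'.1.le (hs'.2.trans_lt ht1) hM0 hM
        have h6 : 0 ≤ ∑' k : ℕ, s ^ k * M k :=
          tsum_nonneg fun k => mul_nonneg (pow_nonneg hs'.1.le _) (hM0 k)
        have h7 : ∑' k : ℕ, s ^ k * M k ≤ ∑' k : ℕ, t ^ k * M k :=
          h5.tsum_le_tsum (fun k => mul_le_mul_of_nonneg_right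
            (pow_le_pow_left₀ hs'.1.le hs'.2 k) (hM0 k)) hs
        beta_reduce
        rw [Real.norm_eq_abs, Real.norm_eq_abs, abs_of_nonneg h6, abs_of_nonneg (h6.trans h7)]
        exact h7
    rw [intervalIntegral.integral_const_mul, intervalIntegral.integral_sub h3
      intervalIntegrable_const, ← h1.tsum_eq]
    simp_rw [h2]
    simp
  rw [← hI]
  -- the convergence
  have hc : Tendsto (fun n : ℕ => ∫ s in (0 : ℝ)..t, prof n β s) atTop
      (𝓝 (∫ s in (0 : ℝ)..t, β ^ 2 / 2 * (∑' k : ℕ, s ^ k * M k - 1))) := by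
    refine intervalIntegral.tendsto_integral_filter_of_dominated_convergence
      (fun _ => β ^ 2 / 2 * (2 * ((1 + t) / (1 - t) ^ 3) + 1)) ?_ ?_ intervalIntegrable_const ?_
    · filter_upwards [eventually_ge_atTop 1] with n hn
      have h := prof_intervalIntegrable n β hn le_rfl ht.le ht1.le
      rw [Set.uIoc_of_le ht.le]
      exact h.1.aestronglyMeasurable
    · filter_upwards [R2.main hβ, ev_tau ht1, tendsto_zz0.eventually_ge_atTop 1,
        eventually_ge_atTop 1] with n h2 h3 hz1 hn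
      refine Eventually.of_forall fun s hs' => ?_
      rw [Set.uIoc_of_le ht.le] at hs'
      obtain ⟨hc, -⟩ := h2 t ht.le h3
      have hm := crossOverlap_mono n β hn hβ0 hs'.1.le hs'.2 ht1.le
      have h0 := prof_nonneg n β hn hs'.1.le (hs'.2.trans ht1.le)
      have hz0 : 0 < zz0 n := by linarith
      have hX : n * crossOverlap n β t ≤ 2 * ((1 + t) / (1 - t) ^ 3) := by
        refine hc.trans ?_
        refine mul_le_mul_of_nonneg_right ?_ (div_nonneg (by linarith)
          (pow_nonneg (by linarith) 3))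
        have : 1 / zz0 n ≤ 1 := by rw [div_le_one hz0]; exact hz1
        linarith
      rw [Real.norm_eq_abs, abs_of_nonneg h0]
      unfold prof
      refine mul_le_mul_of_nonneg_left ?_ (by positivity)
      linarith
    · refine Eventually.of_forall fun s hs' => ?_
      rw [Set.uIoc_of_le ht.le] at hs'
      have h := H s hs'.1 (hs'.2.trans_lt ht1)
      exact (h.sub_const 1).const_mul (β ^ 2 / 2)
  refine hc.congr' ?_
  filter_upwards [eventually_ge_atTop 1] with n hn
  exact (crossCov_formula n β hn ht.le ht1.le).symm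

end Vale.Agent.P146.R3
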